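import Vale.Agent.P030.H208.CpdMeas
import Vale.Agent.P030.H3.Mutual

/-!
# Atoms with bounded slope and their mutual logarithmic energies
-/

namespace Vale.Agent.P030.H208

open Finset Filter Topology MeasureTheory Real ProbabilityTheory
open Vale.Agent.P030.H54 Vale.Agent.P030.H3

set_option linter.unusedSectionVars false

/-- a probability measure whose logarithmic potential `u` is finite, Lipschitz and bounded below -/
structure Atom where
  ν : Measure ℂ
  prob : IsProbabilityMeasure ν
  noat : ∀ z, ν {z} = 0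
  hlog : Integrable (fun x => Real.log (1 + ‖x‖)) ν
  u : ℂ → ℝ
  hint : ∀ z, Integrable (fun x => Real.log ‖z - x‖) ν
  hu : ∀ z, ∫ x, Real.log ‖z - x‖ ∂ν = u z
  L : ℝ
  L_nonneg : 0 ≤ L
  lip : ∀ z z', |u z - u z'| ≤ L * ‖z - z'‖
  low : ℝ
  hlow : ∀ z, low ≤ u z

attribute [instance] Atom.prob

lemma abs_log_le {t : ℝ} (ht : 0 ≤ t) : |Real.log t| ≤ 2 * Real.log (1 + t) - Real.log t := by
  rcases ht.eq_or_lt with h | h
  · subst h; simp
  have h1 : Real.log t ≤ Real.log (1 + t) := Real.log_le_log h (by linarith)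
  have h2 : 0 ≤ Real.log (1 + t) := Real.log_nonneg (by linarith)
  rw [abs_le]
  constructor <;> linarith

lemma log_one_add_le (a b : ℂ) :
    Real.log (1 + ‖a - b‖) ≤ Real.log (1 + ‖a‖) + Real.log (1 + ‖b‖) := by
  rw [← Real.log_mul (by positivity) (by positivity)]
  refine Real.log_le_log (by positivity) ?_
  have := norm_sub_le a b
  nlinarith [norm_nonneg a, norm_nonneg b, mul_nonneg (norm_nonneg a) (norm_nonneg b)]

namespace Atom

variable (A B : Atom)

lemma continuous_u : Continuous A.u := by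
  refine (LipschitzWith.of_dist_le_mul (K := ⟨A.L, A.L_nonneg⟩) fun z z' => ?_).continuous
  rw [Real.dist_eq, dist_eq_norm]
  exact A.lip z z'

/-- the constant in the growth bound -/
noncomputable def ml : ℝ := ∫ x, Real.log (1 + ‖x‖) ∂A.ν

lemma log_one_integrable (z : ℂ) : Integrable (fun x => Real.log (1 + ‖z - x‖)) A.ν := by
  refine ((integrable_const (Real.log (1 + ‖z‖))).add A.hlog).mono' ?_ ?_
  · refine Continuous.aestronglyMeasurable (Continuous.log (by fun_prop) fun x => ?_)
    positivity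
  · refine Eventually.of_forall fun x => ?_
    rw [Real.norm_eq_abs, abs_of_nonneg (Real.log_nonneg (by linarith [norm_nonneg (z - x)]))]
    exact log_one_add_le z x

lemma int_log_one_le (z : ℂ) : ∫ x, Real.log (1 + ‖z - x‖) ∂A.ν ≤ Real.log (1 + ‖z‖) + A.ml := by
  have h := integral_mono (A.log_one_integrable z)
    ((integrable_const (Real.log (1 + ‖z‖))).add A.hlog) fun x => log_one_add_le z x
  refine h.trans (le_of_eq ?_)
  simp only [Pi.add_apply]
  rw [integral_add (integrable_const _) A.hlog]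
  simp [ml]

lemma measurable_kern : StronglyMeasurable (fun z : ℂ × ℂ => Real.log ‖z.1 - z.2‖) :=
  (Real.measurable_log.comp (by fun_prop : Measurable fun z : ℂ × ℂ => ‖z.1 - z.2‖)).stronglyMeasurable

lemma int_abs_le (z : ℂ) : ∫ x, ‖Real.log ‖z - x‖‖ ∂A.ν ≤
    2 * (Real.log (1 + ‖z‖) + A.ml) - A.low := by
  have h1 : ∫ x, ‖Real.log ‖z - x‖‖ ∂A.ν ≤
      ∫ x, (2 * Real.log (1 + ‖z - x‖) - Real.log ‖z - x‖) ∂A.ν := by
    refine integral_mono (A.hint z).norm (((A.log_one_integrable z).const_mul 2).sub (A.hint z))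
      fun x => ?_
    rw [Real.norm_eq_abs]
    exact abs_log_le (norm_nonneg _)
  rw [integral_sub ((A.log_one_integrable z).const_mul 2) (A.hint z), integral_const_mul,
    A.hu] at h1
  have := A.int_log_one_le z
  have := A.hlow z
  linarith

lemma int_kern : Integrable (fun z : ℂ × ℂ => Real.log ‖z.1 - z.2‖) (A.ν.prod B.ν) := by
  rw [integrable_prod_iff measurable_kern.aestronglyMeasurable]
  refine ⟨Eventually.of_forall fun x => B.hint x, ?_⟩
  have hb : Integrable (fun x => 2 * (Real.log (1 + ‖x‖) + B.ml) - B.low) A.ν :=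
    ((A.hlog.add (integrable_const B.ml)).const_mul 2).sub (integrable_const _)
  refine hb.mono' ?_ (Eventually.of_forall fun x => ?_)
  · exact (measurable_kern.norm.aestronglyMeasurable (μ := A.ν.prod B.ν)).integral_prod_right'
  · rw [Real.norm_eq_abs, abs_of_nonneg (integral_nonneg fun y => norm_nonneg _)]
    exact B.int_abs_le x

lemma int_ker_one : Integrable (ker 1) (A.ν.prod B.ν) := by
  have hb : Integrable (fun z : ℂ × ℂ => 2 * (Real.log (1 + ‖z.1‖) + Real.log (1 + ‖z.2‖)))
      (A.ν.prod B.ν) := by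
    refine Integrable.const_mul (Integrable.add ?_ ?_) 2
    · exact A.hlog.comp_fst B.ν
    · exact B.hlog.comp_snd A.ν
  refine hb.mono' (continuous_ker one_pos).aestronglyMeasurable (Eventually.of_forall fun z => ?_)
  have h1 : (1 : ℝ) ≤ ‖z.1 - z.2‖ ^ 2 + 1 := by nlinarith [norm_nonneg (z.1 - z.2)]
  rw [Real.norm_eq_abs, ker, abs_of_nonneg (Real.log_nonneg h1)]
  have h2 : Real.log (‖z.1 - z.2‖ ^ 2 + 1) ≤ 2 * Real.log (1 + ‖z.1 - z.2‖) := by
    have : 2 * Real.log (1 + ‖z.1 - z.2‖) = Real.log ((1 + ‖z.1 - z.2‖) ^ 2) := by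
      rw [Real.log_pow]; push_cast; ring
    rw [this]
    refine Real.log_le_log (by positivity) ?_
    nlinarith [norm_nonneg (z.1 - z.2)]
  have := log_one_add_le z.1 z.2
  linarith

lemma ae_ne : ∀ᵐ z ∂(A.ν.prod B.ν), z.1 ≠ z.2 := by
  have hs : MeasurableSet {z : ℂ × ℂ | ¬ z.1 ≠ z.2} := by
    have : {z : ℂ × ℂ | ¬ z.1 ≠ z.2} = {z | z.1 = z.2} := by ext; simp
    rw [this]
    exact measurableSet_eq_fun measurable_fst measurable_snd
  rw [ae_iff, Measure.prod_apply hs, lintegral_eq_zero_iff (measurable_measure_prodMk_left hs)]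
  refine Eventually.of_forall fun x => ?_
  have : Prod.mk x ⁻¹' {z : ℂ × ℂ | ¬ z.1 ≠ z.2} = {x} := by
    ext y; simp [eq_comm]
  simp only [this, B.noat x, Pi.zero_apply]

/-- mutual energy -/
noncomputable def cr : ℝ := ∫ x, B.u x ∂A.ν

lemma integral_kern : ∫ z, Real.log ‖z.1 - z.2‖ ∂(A.ν.prod B.ν) = A.cr B := by
  rw [integral_prod _ (A.int_kern B)]
  simp only [B.hu, cr]

lemma integrable_u : Integrable B.u A.ν := by
  have h := (A.int_kern B).integral_prod_left
  simpa only [B.hu] using h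

lemma cr_comm : A.cr B = B.cr A := by
  rw [← A.integral_kern B, ← B.integral_kern A, ← integral_prod_swap]
  refine integral_congr_ae (Eventually.of_forall fun z => ?_)
  simp only [Prod.fst_swap, Prod.snd_swap]
  rw [norm_sub_rev]

end Atom

/-- **neutral combinations of atoms have non-positive energy** -/
theorem atoms_cpd {P : Type*} [Fintype P] (A : P → Atom) (q : P → ℝ) (hq : ∑ p, q p = 0) :
    ∑ p, ∑ p', q p * q p' * (A p).cr (A p') ≤ 0 := by
  have h := cpd_zero (fun p => (A p).ν) q hq (fun p p' => (A p).int_kern (A p'))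
    (fun p p' => (A p).int_ker_one (A p')) (fun p p' => (A p).ae_ne (A p'))
  simpa only [Atom.integral_kern] using h

end Vale.Agent.P030.H208
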