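import Vale.Agent.P030.H208.MixPot

/-!
# Mutual energies of circles and Cauchy measures in closed form
-/

namespace Vale.Agent.P030.H208

open Finset Filter Topology MeasureTheory Real ProbabilityTheory
open Vale.Agent.P030.H54 Vale.Agent.P030.H3
open scoped ComplexConjugate

set_option linter.unusedSectionVars false

namespace Atom

variable (A B : Atom)

lemma ae_ne_const (b : ℂ) : ∀ᵐ x ∂A.ν, x ≠ b := by
  rw [ae_iff]
  refine le_antisymm ((measure_mono fun x hx => ?_).trans_eq (A.noat b)) bot_le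
  simpa using hx

/-- **one logarithm on the support**: if the potential of `B` is `log |x - b| + c` almost
everywhere for `A`, the mutual energy is the potential of `A` at `b` plus `c` -/
lemma cr_of_ae {b : ℂ} {c : ℝ} (h : ∀ᵐ x ∂A.ν, B.u x = Real.log ‖x - b‖ + c) :
    A.cr B = A.u b + c := by
  have h1 : Integrable (fun x => Real.log ‖x - b‖) A.ν := by
    simpa only [norm_sub_rev] using A.hint b
  have h2 : ∫ x, Real.log ‖x - b‖ ∂A.ν = A.u b := by
    rw [← A.hu b]
    simp only [norm_sub_rev]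
  rw [cr, integral_congr_ae h, integral_add h1 (integrable_const _), h2]
  simp

lemma cr_of_ae_const {c : ℝ} (h : ∀ᵐ x ∂A.ν, B.u x = c) : A.cr B = c := by
  rw [cr, integral_congr_ae h]
  simp

lemma cr_mono {B C : Atom} (h : ∀ᵐ x ∂A.ν, B.u x ≤ C.u x) : A.cr B ≤ A.cr C :=
  integral_mono_ae (A.integrable_u B) (A.integrable_u C) h

lemma cr_le {c : ℝ} (h : ∀ᵐ x ∂A.ν, B.u x ≤ c) : A.cr B ≤ c := by
  have := integral_mono_ae (A.integrable_u B) (integrable_const c) h
  rw [integral_const, probReal_univ, one_smul] at this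
  exact this

lemma le_cr {c : ℝ} (h : ∀ᵐ x ∂A.ν, c ≤ B.u x) : c ≤ A.cr B := by
  have := integral_mono_ae (integrable_const c) (A.integrable_u B) h
  rw [integral_const, probReal_univ, one_smul] at this
  exact this

/-- the potential at the centre is a lower bound of the mutual energy with a circle -/
lemma le_circ_cr {c : ℂ} {ρ : ℝ} (hρ : 0 < ρ) : B.u c ≤ (circ c ρ hρ).cr B := by
  rw [cr_comm, cr, ← B.hu c]
  refine integral_mono_ae (B.hint c) (B.integrable_u _) ?_
  filter_upwards [B.ae_ne_const c] with x hx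
  change Real.log ‖c - x‖ ≤ (circ c ρ hρ).u x
  rw [circ_u hρ x, norm_sub_rev]
  exact Real.log_le_log (norm_pos_iff.2 (sub_ne_zero.2 hx)) (le_max_right _ _)

end Atom

/-! ## Cauchy measures -/

section cau

variable {p : ℂ}

lemma cau_det (hp : p.im ≠ 0) : p * (-1) - -conj p * 1 ≠ 0 := by
  intro h
  apply hp
  have h1 := congrArg Complex.im h
  simp only [Complex.sub_im, Complex.neg_im, Complex.conj_im, mul_neg, mul_one,
    Complex.zero_im] at h1
  linarith

/-- **the Cauchy measure** of the real line seen from `p` -/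
noncomputable def cau (p : ℂ) (hp : p.im ≠ 0) : Atom := mob p (-conj p) 1 (-1) (cau_det hp)

lemma cau_u (hp : p.im ≠ 0) (z : ℂ) :
    (cau p hp).u z = Real.log (max ‖z - p‖ ‖z - conj p‖) := by
  change mobU p (-conj p) 1 (-1) z = _
  have e : (-1 : ℂ) * z - -conj p = -(z - conj p) := by ring
  rw [mobU, one_mul, e, norm_neg, norm_neg, norm_one, max_self, Real.log_one, sub_zero]

lemma norm_sub_conj_real {x p : ℂ} (hx : x.im = 0) : ‖x - conj p‖ = ‖x - p‖ := by
  have : x - conj p = conj (x - p) := by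
    rw [map_sub, Complex.conj_eq_iff_im.2 hx]
  rw [this, Complex.norm_conj]

lemma cau_u_real (hp : p.im ≠ 0) {x : ℂ} (hx : x.im = 0) :
    (cau p hp).u x = Real.log ‖x - p‖ := by
  rw [cau_u, norm_sub_conj_real hx, max_self]

lemma cau_u_upper (hp : p.im ≠ 0) {z : ℂ} (h : 0 ≤ z.im * p.im) :
    (cau p hp).u z = Real.log ‖z - conj p‖ := by
  rw [cau_u, max_eq_right]
  rw [← sq_le_sq₀ (norm_nonneg _) (norm_nonneg _), Complex.sq_norm, Complex.sq_norm,
    Complex.normSq_apply, Complex.normSq_apply]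
  simp only [Complex.sub_re, Complex.sub_im, Complex.conj_re, Complex.conj_im]
  nlinarith

lemma cau_L (hp : p.im ≠ 0) : (cau p hp).L = 1 / |p.im| := by
  change max ‖(1 : ℂ)‖ ‖(-1 : ℂ)‖ / mobM p (-conj p) 1 (-1) = _
  rw [mobM, norm_neg, norm_one, max_self]
  have e : p * -1 - -conj p * 1 = ((-2 * p.im : ℝ) : ℂ) * Complex.I := by
    apply Complex.ext <;> simp
    ring
  rw [e, norm_mul, Complex.norm_I, mul_one, Complex.norm_real, Real.norm_eq_abs, abs_mul]
  norm_num

/-- the Cauchy measure is carried by the real line -/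
lemma cau_ae_real (hp : p.im ≠ 0) : ∀ᵐ x ∂(cau p hp).ν, x.im = 0 := by
  change ∀ᵐ x ∂(tau.map (mobX p (-conj p) 1 (-1))), x.im = 0
  rw [ae_map_iff measurable_mobX.aemeasurable
    (measurableSet_eq_fun Complex.measurable_im measurable_const)]
  filter_upwards [ae_lin_ne (α := 1) (β := -1) (Or.inl one_ne_zero)] with θ h1
  have hz : zt θ ≠ 0 := by
    rw [← norm_ne_zero_iff, norm_zt]; exact one_ne_zero
  have hc : conj (zt θ) * zt θ = 1 := by
    rw [mul_comm, Complex.mul_conj, Complex.normSq_eq_norm_sq, norm_zt]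
    simp
  have h2 : conj ((1 : ℂ) + -1 * zt θ) ≠ 0 := by
    rw [Ne, map_eq_zero_iff _ (starRingEnd ℂ).injective]
    exact h1
  rw [← Complex.conj_eq_iff_im, mobX, map_div₀, div_eq_div_iff h2 h1]
  simp only [map_add, map_mul, map_neg, map_one, Complex.conj_conj]
  linear_combination (p - conj p) * hc

/-- **Cauchy–Cauchy** -/
lemma cau_cr_cau {p' : ℂ} (hp : p.im ≠ 0) (hp' : p'.im ≠ 0) :
    (cau p hp).cr (cau p' hp') = Real.log (max ‖p' - p‖ ‖p' - conj p‖) := by
  rw [Atom.cr_of_ae (cau p hp) (cau p' hp') (b := p') (c := 0), cau_u, add_zero]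
  filter_upwards [cau_ae_real hp] with x hx
  rw [cau_u_real hp' hx, add_zero]

/-- Cauchy–Cauchy, poles on the same side -/
lemma cau_cr_cau_same {p' : ℂ} (hp : p.im ≠ 0) (hp' : p'.im ≠ 0) (h : 0 ≤ p'.im * p.im) :
    (cau p hp).cr (cau p' hp') = Real.log ‖p' - conj p‖ := by
  rw [cau_cr_cau, ← cau_u hp, cau_u_upper hp h]

/-- **Cauchy–circle**, the circle does not cross the real line -/
lemma cau_cr_circ (hp : p.im ≠ 0) {c : ℂ} {ρ : ℝ} (hρ : 0 < ρ) (h : ρ ≤ |c.im|) :
    (cau p hp).cr (circ c ρ hρ) = Real.log (max ‖c - p‖ ‖c - conj p‖) := by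
  rw [Atom.cr_of_ae (cau p hp) (circ c ρ hρ) (b := c) (c := 0), cau_u, add_zero]
  filter_upwards [cau_ae_real hp] with x hx
  rw [circ_u, add_zero, max_eq_right]
  refine h.trans ?_
  have := Complex.abs_im_le_norm (x - c)
  rwa [Complex.sub_im, hx, zero_sub, abs_neg] at this

/-- Cauchy–circle, circle and pole on the same side of the real line -/
lemma cau_cr_circ_same (hp : p.im ≠ 0) {c : ℂ} {ρ : ℝ} (hρ : 0 < ρ) (h : ρ ≤ |c.im|)
    (h' : 0 ≤ c.im * p.im) :
    (cau p hp).cr (circ c ρ hρ) = Real.log ‖c - conj p‖ := by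
  rw [cau_cr_circ hp hρ h, ← cau_u hp, cau_u_upper hp h']

/-- Cauchy–circle, all positions, lower bound -/
lemma le_cau_cr_circ (hp : p.im ≠ 0) {c : ℂ} {ρ : ℝ} (hρ : 0 < ρ) :
    Real.log (max ‖c - p‖ ‖c - conj p‖) ≤ (cau p hp).cr (circ c ρ hρ) := by
  rw [Atom.cr_comm, ← cau_u hp]
  exact Atom.le_circ_cr _ hρ

/-- Cauchy–circle, all positions, upper bound -/
lemma cau_cr_circ_le (hp : p.im ≠ 0) {c : ℂ} {ρ : ℝ} (hρ : 0 < ρ) :
    (cau p hp).cr (circ c ρ hρ) ≤ Real.log (max ‖c - p‖ ‖c - conj p‖ + ρ) := by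
  rw [Atom.cr_comm, circ_cr]
  have h : circleAverage (cau p hp).u c ρ ≤
      circleAverage (fun _ => Real.log (max ‖c - p‖ ‖c - conj p‖ + ρ)) c ρ := by
    refine circleAverage_mono (circleIntegrable_u _) (circleIntegrable_const _ _ _)
      fun z hz => ?_
    rw [abs_of_pos hρ, Metric.mem_sphere, dist_eq_norm] at hz
    have hpos : 0 < max ‖z - p‖ ‖z - conj p‖ := by
      by_contra h0
      have h1 : ‖z - p‖ ≤ 0 := (le_max_left _ _).trans (not_lt.1 h0)
      have h2 : ‖z - conj p‖ ≤ 0 := (le_max_right _ _).trans (not_lt.1 h0)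
      have h3 := sub_eq_zero.1 (norm_le_zero_iff.1 h1)
      have h4 := sub_eq_zero.1 (norm_le_zero_iff.1 h2)
      rw [h3] at h4
      exact hp (Complex.conj_eq_iff_im.1 h4.symm)
    rw [cau_u]
    refine Real.log_le_log hpos (max_le ?_ ?_)
    · have e : z - p = (z - c) + (c - p) := by ring
      rw [e]
      refine (norm_add_le _ _).trans ?_
      rw [hz]
      linarith [le_max_left ‖c - p‖ ‖c - conj p‖]
    · have e : z - conj p = (z - c) + (c - conj p) := by ring
      rw [e]
      refine (norm_add_le _ _).trans ?_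
      rw [hz]
      linarith [le_max_right ‖c - p‖ ‖c - conj p‖]
  rwa [circleAverage_const] at h

/-- large circle round the pole and its mirror image: constant potential there is not available,
but a circle which contains `p` and `conj p` has mutual energy at least `log ρ` -/
lemma log_le_cau_cr_circ (hp : p.im ≠ 0) {c : ℂ} {ρ : ℝ} (hρ : 0 < ρ) :
    Real.log ρ ≤ (cau p hp).cr (circ c ρ hρ) := by
  refine Atom.le_cr _ _ (Eventually.of_forall fun x => ?_)
  rw [circ_u]
  exact Real.log_le_log hρ (le_max_left _ _)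

end cau

end Vale.Agent.P030.H208
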