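import Vale.Agent.P030.H54.Cpd

/-!
# Conditional negativity of the logarithmic energy for arbitrary probability measures
-/

namespace Vale.Agent.P030.H208

open Finset Filter Topology MeasureTheory Real ProbabilityTheory
open Vale.Agent.P030.H54

set_option linter.unusedSectionVars false

lemma map_pair {A : Type*} [Fintype A] (μ : A → Measure ℂ)
    [∀ a, IsProbabilityMeasure (μ a)] {a b : A} (h : a ≠ b) :
    MeasurePreserving (fun ω : A → ℂ => (ω a, ω b)) (Measure.pi μ) ((μ a).prod (μ b)) := by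
  have hi := (iIndepFun_pi (μ := μ) (X := fun _ => id) (fun _ => aemeasurable_id)).indepFun h
  have h1 := (indepFun_iff_map_prod_eq_prod_map_map (measurable_pi_apply a).aemeasurable
    (measurable_pi_apply b).aemeasurable).1 hi
  refine ⟨(measurable_pi_apply a).prodMk (measurable_pi_apply b), ?_⟩
  have e1 := (measurePreserving_eval μ a).map_eq
  have e2 := (measurePreserving_eval μ b).map_eq
  rw [h1]
  congr 1

variable {P : Type*} [Fintype P]

/-- the regularised kernel -/
noncomputable def ker (ε : ℝ) (z : ℂ × ℂ) : ℝ := Real.log (‖z.1 - z.2‖ ^ 2 + ε)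

lemma continuous_ker {ε : ℝ} (hε : 0 < ε) : Continuous (ker ε) := by
  unfold ker
  refine Continuous.log (by fun_prop) fun z => ?_
  positivity

lemma aux_N (ν : P → Measure ℂ) [∀ p, IsProbabilityMeasure (ν p)] (q : P → ℝ)
    (hq : ∑ p, q p = 0) {ε : ℝ} (hε : 0 < ε)
    (hint : ∀ p p', Integrable (ker ε) ((ν p).prod (ν p'))) {N : ℕ} (hN : 0 < N) :
    ∑ p, ∑ p', q p * q p' * ∫ z, ker ε z ∂((ν p).prod (ν p')) +
      (1 / N : ℝ) * ∑ p, q p ^ 2 * (Real.log ε - ∫ z, ker ε z ∂((ν p).prod (ν p))) ≤ 0 := by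
  classical
  have hNr : (0 : ℝ) < N := Nat.cast_pos.2 hN
  let μ : P × Fin N → Measure ℂ := fun a => ν a.1
  let Q : P × Fin N → ℝ := fun a => q a.1 / N
  have hQ : ∑ a, Q a = 0 := by
    simp only [Q, Fintype.sum_prod_type, Finset.sum_const, Finset.card_univ, Fintype.card_fin,
      nsmul_eq_mul]
    rw [← Finset.mul_sum, ← Finset.sum_div, hq]
    simp
  have h1 : ∀ ω : P × Fin N → ℂ, ∑ a, ∑ b, Q a * Q b * ker ε (ω a, ω b) ≤ 0 := fun ω =>
    log_cpd ω Q hQ hε
  have hI : ∀ a b : P × Fin N, Integrable (fun ω : P × Fin N → ℂ => ker ε (ω a, ω b))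
      (Measure.pi μ) := by
    intro a b
    by_cases hab : a = b
    · subst hab
      have : (fun ω : P × Fin N → ℂ => ker ε (ω a, ω a)) = fun _ => Real.log ε := by
        funext ω; simp [ker]
      rw [this]
      exact integrable_const _
    · exact ((map_pair μ hab).integrable_comp (continuous_ker hε).aestronglyMeasurable).2
        (hint _ _)
  have hV : ∀ a b : P × Fin N, ∫ ω : P × Fin N → ℂ, ker ε (ω a, ω b) ∂(Measure.pi μ) =
      if a = b then Real.log ε else ∫ z, ker ε z ∂((ν a.1).prod (ν b.1)) := by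
    intro a b
    by_cases hab : a = b
    · subst hab
      have : (fun ω : P × Fin N → ℂ => ker ε (ω a, ω a)) = fun _ => Real.log ε := by
        funext ω; simp [ker]
      rw [this, if_pos rfl]
      simp
    · rw [if_neg hab]
      have h2 := (map_pair μ hab).map_eq
      rw [← h2, integral_map (map_pair μ hab).measurable.aemeasurable
        (continuous_ker hε).aestronglyMeasurable]
  have h2 : ∑ a, ∑ b, Q a * Q b *
      (if a = b then Real.log ε else ∫ z, ker ε z ∂((ν a.1).prod (ν b.1))) ≤ 0 := by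
    have h3 : ∫ ω, (∑ a, ∑ b, Q a * Q b * ker ε (ω a, ω b)) ∂(Measure.pi μ) ≤ 0 :=
      integral_nonpos fun ω => h1 ω
    rw [integral_finsetSum] at h3
    · refine le_trans (le_of_eq ?_) h3
      refine Finset.sum_congr rfl fun a _ => ?_
      rw [integral_finsetSum]
      · refine Finset.sum_congr rfl fun b _ => ?_
        rw [integral_const_mul, hV]
      · exact fun b _ => (hI a b).const_mul _
    · exact fun a _ => integrable_finsetSum _ fun b _ => (hI a b).const_mul _
  refine le_trans (le_of_eq ?_) h2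
  have h4 : ∀ a b : P × Fin N, Q a * Q b *
      (if a = b then Real.log ε else ∫ z, ker ε z ∂((ν a.1).prod (ν b.1))) =
      Q a * Q b * (∫ z, ker ε z ∂((ν a.1).prod (ν b.1))) +
      (if a = b then Q a * Q b * (Real.log ε - ∫ z, ker ε z ∂((ν a.1).prod (ν b.1))) else 0) := by
    intro a b
    split_ifs <;> ring
  simp only [h4, Finset.sum_add_distrib, Finset.sum_ite_eq, Finset.mem_univ, if_true]
  simp only [Fintype.sum_prod_type, Q, Finset.sum_const, Finset.card_univ, Fintype.card_fin,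
    nsmul_eq_mul]
  congr 1
  · rw [← Finset.mul_sum]
    have : ∀ p, ∑ p', (N : ℝ) * (q p / N * (q p' / N) * ∫ z, ker ε z ∂((ν p).prod (ν p'))) =
        (1 / N : ℝ) * ∑ p', q p * q p' * ∫ z, ker ε z ∂((ν p).prod (ν p')) := by
      intro p
      rw [Finset.mul_sum]
      refine Finset.sum_congr rfl fun p' _ => ?_
      field_simp
    simp only [this]
    rw [← Finset.mul_sum, ← mul_assoc, mul_one_div_cancel hNr.ne', one_mul]
  · rw [Finset.mul_sum]
    refine Finset.sum_congr rfl fun p _ => ?_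
    field_simp

/-- the regularised energy of a neutral combination is non-positive -/
theorem cpd_eps (ν : P → Measure ℂ) [∀ p, IsProbabilityMeasure (ν p)] (q : P → ℝ)
    (hq : ∑ p, q p = 0) {ε : ℝ} (hε : 0 < ε)
    (hint : ∀ p p', Integrable (ker ε) ((ν p).prod (ν p'))) :
    ∑ p, ∑ p', q p * q p' * ∫ z, ker ε z ∂((ν p).prod (ν p')) ≤ 0 := by
  set A := ∑ p, ∑ p', q p * q p' * ∫ z, ker ε z ∂((ν p).prod (ν p')) with hA
  set B := ∑ p, q p ^ 2 * (Real.log ε - ∫ z, ker ε z ∂((ν p).prod (ν p))) with hB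
  have hlim : Tendsto (fun N : ℕ => A + (1 / (N : ℝ)) * B) atTop (𝓝 (A + 0 * B)) :=
    tendsto_const_nhds.add (tendsto_one_div_atTop_nhds_zero_nat.mul_const B)
  rw [zero_mul, add_zero] at hlim
  refine le_of_tendsto hlim ?_
  filter_upwards [eventually_gt_atTop 0] with N hN
  exact aux_N ν q hq hε hint hN

/-- **the energy of a neutral combination is non-positive** -/
theorem cpd_zero (ν : P → Measure ℂ) [∀ p, IsProbabilityMeasure (ν p)] (q : P → ℝ)
    (hq : ∑ p, q p = 0)
    (h0 : ∀ p p', Integrable (fun z : ℂ × ℂ => Real.log ‖z.1 - z.2‖) ((ν p).prod (ν p')))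
    (h1 : ∀ p p', Integrable (ker 1) ((ν p).prod (ν p')))
    (hd : ∀ p p', ∀ᵐ z ∂((ν p).prod (ν p')), z.1 ≠ z.2) :
    ∑ p, ∑ p', q p * q p' * ∫ z, Real.log ‖z.1 - z.2‖ ∂((ν p).prod (ν p')) ≤ 0 := by
  -- pointwise bounds
  have hb : ∀ ε : ℝ, 0 < ε → ε ≤ 1 → ∀ z : ℂ × ℂ, z.1 ≠ z.2 →
      |ker ε z| ≤ |ker 1 z| + 2 * |Real.log ‖z.1 - z.2‖| := by
    intro ε hε hε1 z hz
    have hn : 0 < ‖z.1 - z.2‖ := norm_pos_iff.2 (sub_ne_zero.2 hz)
    have hlo : 2 * Real.log ‖z.1 - z.2‖ ≤ ker ε z := by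
      have : 2 * Real.log ‖z.1 - z.2‖ = Real.log (‖z.1 - z.2‖ ^ 2) := by
        rw [Real.log_pow]; push_cast; ring
      rw [this]
      exact Real.log_le_log (by positivity) (by linarith)
    have hhi : ker ε z ≤ ker 1 z := Real.log_le_log (by positivity) (by linarith)
    rw [abs_le]
    constructor
    · have := neg_abs_le (Real.log ‖z.1 - z.2‖)
      have := abs_nonneg (ker 1 z)
      linarith
    · have := le_abs_self (ker 1 z)
      have := abs_nonneg (Real.log ‖z.1 - z.2‖)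
      linarith
  have hdom : ∀ p p', Integrable (fun z : ℂ × ℂ => |ker 1 z| + 2 * |Real.log ‖z.1 - z.2‖|)
      ((ν p).prod (ν p')) := fun p p' => (h1 p p').abs.add ((h0 p p').abs.const_mul 2)
  have hεI : ∀ ε : ℝ, 0 < ε → ε ≤ 1 → ∀ p p', Integrable (ker ε) ((ν p).prod (ν p')) := by
    intro ε hε hε1 p p'
    refine (hdom p p').mono' (continuous_ker hε).aestronglyMeasurable ?_
    filter_upwards [hd p p'] with z hz
    exact hb ε hε hε1 z hz
  -- the sequence ε = 1 / (n + 1)
  let e : ℕ → ℝ := fun n => 1 / ((n : ℝ) + 1)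
  have he0 : ∀ n, 0 < e n := fun n => by simp only [e]; positivity
  have he1 : ∀ n, e n ≤ 1 := fun n => by
    simp only [e]
    rw [div_le_one (by positivity)]
    have : (0 : ℝ) ≤ n := Nat.cast_nonneg n
    linarith
  have hel : Tendsto e atTop (𝓝 0) := tendsto_one_div_add_atTop_nhds_zero_nat
  have hlim : ∀ p p', Tendsto (fun n => ∫ z, ker (e n) z ∂((ν p).prod (ν p'))) atTop
      (𝓝 (∫ z, 2 * Real.log ‖z.1 - z.2‖ ∂((ν p).prod (ν p')))) := by
    intro p p'
    refine tendsto_integral_of_dominated_convergence _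
      (fun n => (continuous_ker (he0 n)).aestronglyMeasurable) (hdom p p') (fun n => ?_) ?_
    · filter_upwards [hd p p'] with z hz
      exact hb _ (he0 n) (he1 n) z hz
    · filter_upwards [hd p p'] with z hz
      have hn : 0 < ‖z.1 - z.2‖ := norm_pos_iff.2 (sub_ne_zero.2 hz)
      have h2 : 2 * Real.log ‖z.1 - z.2‖ = Real.log (‖z.1 - z.2‖ ^ 2 + 0) := by
        rw [add_zero, Real.log_pow]; push_cast; ring
      rw [h2]
      have h3 : Tendsto (fun n => ‖z.1 - z.2‖ ^ 2 + e n) atTop (𝓝 (‖z.1 - z.2‖ ^ 2 + 0)) :=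
        tendsto_const_nhds.add hel
      exact (Real.continuousAt_log (by positivity)).tendsto.comp h3
  have hsum : Tendsto (fun n => ∑ p, ∑ p', q p * q p' * ∫ z, ker (e n) z ∂((ν p).prod (ν p')))
      atTop (𝓝 (∑ p, ∑ p', q p * q p' * ∫ z, 2 * Real.log ‖z.1 - z.2‖ ∂((ν p).prod (ν p')))) :=
    tendsto_finsetSum _ fun p _ => tendsto_finsetSum _ fun p' _ => (hlim p p').const_mul _
  have hle : ∑ p, ∑ p', q p * q p' * ∫ z, 2 * Real.log ‖z.1 - z.2‖ ∂((ν p).prod (ν p')) ≤ 0 :=
    le_of_tendsto' hsum fun n => cpd_eps ν q hq (he0 n) (hεI _ (he0 n) (he1 n))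
  have h2 : ∑ p, ∑ p', q p * q p' * ∫ z, 2 * Real.log ‖z.1 - z.2‖ ∂((ν p).prod (ν p')) =
      2 * ∑ p, ∑ p', q p * q p' * ∫ z, Real.log ‖z.1 - z.2‖ ∂((ν p).prod (ν p')) := by
    rw [Finset.mul_sum]
    refine Finset.sum_congr rfl fun p _ => ?_
    rw [Finset.mul_sum]
    refine Finset.sum_congr rfl fun p' _ => ?_
    rw [integral_const_mul]
    ring
  rw [h2] at hle
  linarith

end Vale.Agent.P030.H208
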