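import Vale.Agent.P030.H208.Closed

/-!
# Mutual energy of a circle centred on the real line and a Cauchy measure
-/

namespace Vale.Agent.P030.H208

open Finset Filter Topology MeasureTheory Real ProbabilityTheory
open Vale.Agent.P030.H54 Vale.Agent.P030.H3
open scoped ComplexConjugate

/-- the half circle -/
noncomputable def ei (θ : ℝ) : ℂ := ⟨Real.cos θ, Real.sin θ⟩

lemma ei_eq (θ : ℝ) : ei θ = Complex.exp (θ * Complex.I) := by
  rw [Complex.exp_mul_I]
  apply Complex.ext <;> simp [ei, ← Complex.ofReal_cos, ← Complex.ofReal_sin]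

lemma norm_ei (θ : ℝ) : ‖ei θ‖ = 1 := by
  rw [ei_eq, Complex.norm_exp_ofReal_mul_I]

lemma ei_pow (θ : ℝ) (k : ℕ) : ei θ ^ k = ei (k * θ) := by
  rw [ei_eq, ei_eq, ← Complex.exp_nat_mul]
  push_cast
  ring_nf

/-- the series of the half circle mean -/
lemma hasSum_half {v : ℂ} (hv : ‖v‖ < 1) :
    HasSum (fun k : ℕ => ∫ θ in (0 : ℝ)..π, ((v * ei θ) ^ k / k).re)
      (∫ θ in (0 : ℝ)..π, -Real.log ‖1 - v * ei θ‖) := by
  refine intervalIntegral.hasSum_integral_of_dominated_convergence (fun k _ => ‖v‖ ^ k)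
    (fun k => ?_) (fun k => ?_) ?_ ?_ ?_
  · refine Continuous.aestronglyMeasurable ?_
    have : Continuous ei := by
      have h : ei = fun θ : ℝ => Complex.exp (θ * Complex.I) := funext ei_eq
      rw [h]; fun_prop
    fun_prop
  · refine Eventually.of_forall fun θ _ => ?_
    rw [Real.norm_eq_abs]
    refine (Complex.abs_re_le_norm _).trans ?_
    rw [norm_div, norm_pow, norm_mul, norm_ei, mul_one, Complex.norm_natCast]
    rcases Nat.eq_zero_or_pos k with h | h
    · subst h; simp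
    · exact div_le_self (by positivity) (by exact_mod_cast h)
  · exact Eventually.of_forall fun θ _ => summable_geometric_of_lt_one (norm_nonneg v) hv
  · exact intervalIntegrable_const
  · refine Eventually.of_forall fun θ _ => ?_
    have h1 : ‖v * ei θ‖ < 1 := by rwa [norm_mul, norm_ei, mul_one]
    have h2 := Complex.hasSum_re (Complex.hasSum_taylorSeries_neg_log h1)
    rw [Complex.neg_re, Complex.log_re] at h2
    exact h2

lemma int_term (v : ℂ) (k : ℕ) :
    ∫ θ in (0 : ℝ)..π, ((v * ei θ) ^ k / k).re =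
      -((v ^ k).im * (1 - Real.cos (k * π)) / (k : ℝ) ^ 2) := by
  rcases Nat.eq_zero_or_pos k with h | h
  · subst h; simp
  have hk : (k : ℝ) ≠ 0 := by exact_mod_cast h.ne'
  have e : ∀ θ : ℝ, ((v * ei θ) ^ k / k).re =
      (v ^ k).re / k * Real.cos (k * θ) - (v ^ k).im / k * Real.sin (k * θ) := by
    intro θ
    rw [mul_pow, ei_pow]
    have : (v ^ k * ei (k * θ) / (k : ℂ)) = v ^ k * ei (k * θ) / ((k : ℝ) : ℂ) := by push_cast; rfl
    rw [this, Complex.div_ofReal_re, Complex.mul_re, ei]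
    ring
  simp only [e]
  rw [intervalIntegral.integral_sub, intervalIntegral.integral_const_mul,
    intervalIntegral.integral_const_mul, intervalIntegral.integral_comp_mul_left _ hk,
    intervalIntegral.integral_comp_mul_left _ hk, integral_cos, integral_sin]
  · simp only [mul_zero, Real.sin_zero, Real.cos_zero, smul_eq_mul, Real.sin_nat_mul_pi]
    field_simp
    ring
  · exact Continuous.intervalIntegrable (by fun_prop) _ _
  · exact Continuous.intervalIntegrable (by fun_prop) _ _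

lemma hasSum_congr_aux {f g : ℕ → ℝ} {a : ℝ} (h : HasSum f a) (hfg : ∀ j, g j = f j) :
    HasSum g a := by
  rwa [show g = f from funext hfg]

/-- only the odd terms remain -/
lemma hasSum_odd {v : ℂ} (hv : ‖v‖ < 1) :
    HasSum (fun j : ℕ => (v ^ (2 * j + 1)).im / ((2 * j + 1 : ℕ) : ℝ) ^ 2)
      ((∫ θ in (0 : ℝ)..π, Real.log ‖1 - v * ei θ‖) / 2) := by
  have h1 := (hasSum_half hv).neg
  simp only [int_term, intervalIntegral.integral_neg, neg_neg] at h1
  have hinj : Function.Injective (fun j : ℕ => 2 * j + 1) := fun a b h => by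
    simp only at h; omega
  have h2 := (hinj.hasSum_iff (f := fun k : ℕ =>
    (v ^ k).im * (1 - Real.cos (k * π)) / (k : ℝ) ^ 2) (fun k hk => ?_)).2 h1
  · have h3 := h2.div_const 2
    refine hasSum_congr_aux h3 fun j => ?_
    have h4 : Real.cos (((2 * j + 1 : ℕ) : ℝ) * π) = -1 := by
      have : ((2 * j + 1 : ℕ) : ℝ) * π = (j : ℝ) * (2 * π) + π := by push_cast; ring
      rw [this, Real.cos_nat_mul_two_pi_add_pi]
    simp only [Function.comp_apply, h4]
    ring
  · have hk2 : Even k := by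
      by_contra ho
      rw [Nat.not_even_iff_odd] at ho
      obtain ⟨j, hj⟩ := ho
      exact hk ⟨j, hj.symm⟩
    obtain ⟨j, hj⟩ := hk2
    have h4 : Real.cos ((k : ℝ) * π) = 1 := by
      have : (k : ℝ) * π = (j : ℝ) * (2 * π) := by rw [hj]; push_cast; ring
      rw [this, Real.cos_nat_mul_two_pi]
    simp [h4]

/-- partial sums `∑ Im (v ^ k) / k ^ 2`, `k = 1, 3, .., 2 n - 1` -/
noncomputable def chi (v : ℂ) (n : ℕ) : ℝ :=
  ∑ j ∈ range n, (v ^ (2 * j + 1)).im / ((2 * j + 1 : ℕ) : ℝ) ^ 2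

lemma chi_tail {v : ℂ} (hv : ‖v‖ ≤ 1) {n : ℕ} (hn : 0 < n) (m : ℕ) :
    |chi v (n + m) - chi v n| ≤
      ‖v‖ ^ (2 * n + 1) * (1 / (4 * n) - 1 / (4 * ((n + m : ℕ) : ℝ))) := by
  have hn' : (0 : ℝ) < n := by exact_mod_cast hn
  induction m with
  | zero => simp
  | succ m ih =>
    have hN : (0 : ℝ) < ((n + m : ℕ) : ℝ) := by
      push_cast
      have : (0 : ℝ) ≤ m := Nat.cast_nonneg m
      linarith
    have e : chi v (n + (m + 1)) - chi v n = (chi v (n + m) - chi v n) +
        (v ^ (2 * (n + m) + 1)).im / ((2 * (n + m) + 1 : ℕ) : ℝ) ^ 2 := by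
      rw [← add_assoc]
      simp only [chi]
      rw [Finset.sum_range_succ]
      ring
    rw [e]
    refine (abs_add_le _ _).trans ?_
    have h1 : |(v ^ (2 * (n + m) + 1)).im / ((2 * (n + m) + 1 : ℕ) : ℝ) ^ 2| ≤
        ‖v‖ ^ (2 * n + 1) * (1 / (4 * ((n + m : ℕ) : ℝ)) - 1 / (4 * ((n + (m + 1) : ℕ) : ℝ))) := by
      rw [abs_div, abs_of_nonneg (by positivity : (0 : ℝ) ≤ ((2 * (n + m) + 1 : ℕ) : ℝ) ^ 2),
        div_eq_mul_one_div]
      refine mul_le_mul ?_ ?_ (by positivity) (by positivity)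
      · refine (Complex.abs_im_le_norm _).trans ?_
        rw [norm_pow]
        exact pow_le_pow_of_le_one (norm_nonneg _) hv (by omega)
      · have e2 : 1 / (4 * ((n + m : ℕ) : ℝ)) - 1 / (4 * ((n + (m + 1) : ℕ) : ℝ)) =
            1 / (4 * ((n + m : ℕ) : ℝ) * (((n + m : ℕ) : ℝ) + 1)) := by
          push_cast
          push_cast at hN
          field_simp
          ring
        rw [e2]
        refine one_div_le_one_div_of_le (by positivity) ?_
        push_cast
        nlinarith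
    have := add_le_add ih h1
    refine this.trans (le_of_eq ?_)
    ring

lemma chi_bound {v : ℂ} (hv : ‖v‖ < 1) {n : ℕ} (hn : 0 < n) :
    |(∫ θ in (0 : ℝ)..π, Real.log ‖1 - v * ei θ‖) / 2 - chi v n| ≤
      ‖v‖ ^ (2 * n + 1) / (4 * n) := by
  have h1 := (hasSum_odd hv).tendsto_sum_nat
  have h2 : Tendsto (fun m => |chi v (m + n) - chi v n|) atTop
      (𝓝 |(∫ θ in (0 : ℝ)..π, Real.log ‖1 - v * ei θ‖) / 2 - chi v n|) :=
    (((tendsto_add_atTop_iff_nat n).2 h1).sub_const _).abs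
  refine le_of_tendsto' h2 fun m => ?_
  rw [add_comm m n]
  refine (chi_tail hv.le hn m).trans ?_
  have : 0 ≤ ‖v‖ ^ (2 * n + 1) * (1 / (4 * ((n + m : ℕ) : ℝ))) := by positivity
  have e : ‖v‖ ^ (2 * n + 1) / (4 * n) = ‖v‖ ^ (2 * n + 1) * (1 / (4 * n)) := by ring
  rw [e]
  linarith

/-! ## The circle -/

lemma cau_u_conj {p : ℂ} (hp : p.im ≠ 0) (z : ℂ) : (cau p hp).u (conj z) = (cau p hp).u z := by
  have h1 : ‖conj z - p‖ = ‖z - conj p‖ := by
    rw [← Complex.norm_conj (conj z - p), map_sub, Complex.conj_conj]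
  have h2 : ‖conj z - conj p‖ = ‖z - p‖ := by
    rw [← map_sub, Complex.norm_conj]
  rw [cau_u, cau_u, h1, h2, max_comm]

lemma circleMap_real (c ρ θ : ℝ) : circleMap (c : ℂ) ρ θ = c + ρ * ei θ := by
  rw [circleMap, ei_eq]

lemma ei_conj (θ : ℝ) : ei (2 * π - θ) = conj (ei θ) := by
  apply Complex.ext
  · simp [ei, Real.cos_two_pi_sub]
  · simp [ei, Real.sin_two_pi_sub]

lemma half_mean {c : ℝ} {p : ℂ} (hp : 0 < p.im) {ρ : ℝ} (hρ : 0 < ρ) :
    (circ (c : ℂ) ρ hρ).cr (cau p hp.ne') =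
      π⁻¹ * ∫ θ in (0 : ℝ)..π, (cau p hp.ne').u (c + ρ * ei θ) := by
  have hei : Continuous ei := by
    have h : ei = fun θ : ℝ => Complex.exp (θ * Complex.I) := funext ei_eq
    rw [h]; fun_prop
  have hc : Continuous fun θ : ℝ => (cau p hp.ne').u (c + ρ * ei θ) :=
    (cau p hp.ne').continuous_u.comp (by fun_prop)
  rw [circ_cr, circleAverage_def]
  simp only [circleMap_real, smul_eq_mul]
  rw [← intervalIntegral.integral_add_adjacent_intervals (a := (0 : ℝ)) (b := π) (c := 2 * π)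
    (hc.intervalIntegrable _ _) (hc.intervalIntegrable _ _)]
  have h2 : ∫ θ in π..2 * π, (cau p hp.ne').u (c + ρ * ei θ) =
      ∫ θ in (0 : ℝ)..π, (cau p hp.ne').u (c + ρ * ei θ) := by
    have h3 := intervalIntegral.integral_comp_sub_left (a := (0 : ℝ)) (b := π)
      (fun θ => (cau p hp.ne').u (c + ρ * ei θ)) (2 * π)
    rw [show 2 * π - π = π by ring, sub_zero] at h3
    rw [← h3]
    refine intervalIntegral.integral_congr fun θ _ => ?_
    rw [ei_conj, ← cau_u_conj hp.ne' (c + ρ * ei θ)]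
    congr 1
    simp
  rw [h2]
  have : (2 * π)⁻¹ = π⁻¹ / 2 := by
    have := Real.pi_pos
    field_simp
  rw [this]
  ring

lemma u_half {c : ℝ} {p : ℂ} (hp : 0 < p.im) {ρ : ℝ} (hρ : 0 < ρ) {v : ℂ} (hv1 : ‖v‖ < 1)
    (hv : p - c = ρ * v ∨ v * conj (p - c) = ρ) {θ : ℝ} (hθ : θ ∈ Set.Icc 0 π) :
    (cau p hp.ne').u (c + ρ * ei θ) =
      Real.log (max ρ ‖p - c‖) + Real.log ‖1 - v * ei θ‖ := by
  have hs : 0 ≤ Real.sin θ := Real.sin_nonneg_of_mem_Icc hθ
  have him : 0 ≤ (c + ρ * ei θ : ℂ).im * p.im := by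
    have : (c + ρ * ei θ : ℂ).im = ρ * Real.sin θ := by simp [ei]
    rw [this]
    positivity
  rw [cau_u_upper hp.ne' him]
  have h1 : 0 < ‖1 - v * ei θ‖ := by
    have h2 := norm_sub_norm_le (1 : ℂ) (v * ei θ)
    rw [norm_mul, norm_ei, mul_one, norm_one] at h2
    linarith
  have hee : conj (ei θ) * ei θ = 1 := by
    rw [mul_comm, Complex.mul_conj, Complex.normSq_eq_norm_sq, norm_ei]
    simp
  rcases hv with hv | hv
  · have hn : ‖p - c‖ = ρ * ‖v‖ := by
      rw [hv, norm_mul, Complex.norm_real, Real.norm_eq_abs, abs_of_pos hρ]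
    have hM : max ρ ‖p - c‖ = ρ := by
      rw [hn, max_eq_left]
      nlinarith
    have e : (c + ρ * ei θ) - conj p = ρ * (conj (conj (ei θ)) - conj v) := by
      have h3 : conj p = c + ρ * conj v := by
        have h4 := congrArg (starRingEnd ℂ) hv
        rw [map_sub, map_mul, Complex.conj_ofReal, Complex.conj_ofReal] at h4
        linear_combination h4
      rw [h3, Complex.conj_conj]
      ring
    have e2 : conj (ei θ) - v = conj (ei θ) * (1 - v * ei θ) := by
      linear_combination v * hee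
    rw [hM, e, norm_mul, Complex.norm_real, Real.norm_eq_abs, abs_of_pos hρ, ← map_sub,
      Complex.norm_conj, e2, norm_mul, Complex.norm_conj, norm_ei, one_mul,
      Real.log_mul hρ.ne' h1.ne']
  · have hn : ‖v‖ * ‖p - c‖ = ρ := by
      have h4 := congrArg norm hv
      rwa [norm_mul, Complex.norm_conj, Complex.norm_real, Real.norm_eq_abs, abs_of_pos hρ] at h4
    have ha : 0 < ‖p - c‖ := by
      rcases (norm_nonneg (p - c)).eq_or_lt with h | h
      · rw [← h, mul_zero] at hn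
        exact absurd hn hρ.ne
      · exact h
    have hM : max ρ ‖p - c‖ = ‖p - c‖ := by
      rw [max_eq_right]
      nlinarith
    have e : (c + ρ * ei θ) - conj p = -(conj (p - c) * (1 - v * ei θ)) := by
      rw [map_sub, Complex.conj_ofReal] at hv ⊢
      linear_combination -(ei θ) * hv
    rw [hM, e, norm_neg, norm_mul, Complex.norm_conj, Real.log_mul ha.ne' h1.ne']

/-- **circle centred on the real line × Cauchy measure**, truncated series -/
theorem circ_cr_cau_bound {c : ℝ} {p : ℂ} (hp : 0 < p.im) {ρ : ℝ} (hρ : 0 < ρ) {v : ℂ}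
    (hv1 : ‖v‖ < 1) (hv : p - c = ρ * v ∨ v * conj (p - c) = ρ) {n : ℕ} (hn : 0 < n) :
    |(circ (c : ℂ) ρ hρ).cr (cau p hp.ne') -
      (Real.log (max ρ ‖p - c‖) + 2 / π * chi v n)| ≤
      2 / π * (‖v‖ ^ (2 * n + 1) / (4 * n)) := by
  have hpi := Real.pi_pos
  have h1 : ∫ θ in (0 : ℝ)..π, (cau p hp.ne').u (c + ρ * ei θ) =
      π * Real.log (max ρ ‖p - c‖) + ∫ θ in (0 : ℝ)..π, Real.log ‖1 - v * ei θ‖ := by
    have h2 : ∫ θ in (0 : ℝ)..π, (cau p hp.ne').u (c + ρ * ei θ) =
        ∫ θ in (0 : ℝ)..π, (Real.log (max ρ ‖p - c‖) + Real.log ‖1 - v * ei θ‖) := by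
      refine intervalIntegral.integral_congr fun θ hθ => ?_
      rw [Set.uIcc_of_le hpi.le] at hθ
      exact u_half hp hρ hv1 hv hθ
    rw [h2, intervalIntegral.integral_add]
    · simp
    · exact intervalIntegrable_const
    · have hei : Continuous ei := by
        have h : ei = fun θ : ℝ => Complex.exp (θ * Complex.I) := funext ei_eq
        rw [h]; fun_prop
      refine Continuous.intervalIntegrable (Continuous.log (by fun_prop) fun θ => ?_) _ _
      have h2 := norm_sub_norm_le (1 : ℂ) (v * ei θ)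
      rw [norm_mul, norm_ei, mul_one, norm_one] at h2
      linarith
  have h3 := chi_bound hv1 hn
  rw [half_mean hp hρ, h1]
  set I := ∫ θ in (0 : ℝ)..π, Real.log ‖1 - v * ei θ‖ with hI
  have e : π⁻¹ * (π * Real.log (max ρ ‖p - c‖) + I) -
      (Real.log (max ρ ‖p - c‖) + 2 / π * chi v n) = 2 / π * (I / 2 - chi v n) := by
    field_simp
    ring
  rw [e, abs_mul, abs_of_pos (by positivity)]
  exact mul_le_mul_of_nonneg_left h3 (by positivity)

end Vale.Agent.P030.H208
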