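
import Vale.Agent.P030.AR.NGen
import Vale.Agent.P030.H250.Geo4
import Vale.Agent.P030.H284.Omega
import Vale.Agent.P030.H352.NGenR
import Vale.Agent.P030.H462.Link

/-!
# P030, route N: the join (helper208)

All parts of the archimedean half over one certificate table `D : TA.Tab` (helper462), one geometry
`G : GeoN` (helper250, 69) and one set of reading radii `R : H284.Rad`.
-/

open Set Filter
open scoped ComplexConjugate

namespace Vale.Agent.P030.H208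

open Vale.Agent.P030.T
open Vale.Agent.P030.AR (Geo Frs DiscPk TotR cen Dom)
open Vale.Agent.P030.H352 (GPatR)
open Vale.Agent.P030.H579 (parA parA_card)
open Vale.Agent.P030.H866 (Tot Sc)
open Vale.Agent.P030.H905 (Pot WtP E0P)
open Vale.Agent.P030.H462
open Vale.Agent.P030.H462.TA (Tab)
open Vale.Agent.P030.H476.VE (SE EA okE Seg)
open Vale.Agent.P030.H250 (GeoN)

/-! ### radii -/

/-- the radii of the cusp circles are admissible -/
def rhoOk (rn rd : Fin 4 → ℕ) : Bool :=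
  decide ((∀ c, 0 < rn c ∧ 0 < rd c) ∧ 2 * (rn 0 * rd 1 + rn 1 * rd 0) < rd 0 * rd 1 ∧
    2 * (rn 1 * rd 2 + rn 2 * rd 1) < rd 1 * rd 2 ∧ rd 3 < rn 3)

/-- the reading circles lie inside the cusp circles -/
def readIn (rn rd : Fin 4 → ℕ) (R : H284.Rad) : Bool :=
  decide (R.p 0 * rd 0 + R.p 0 * rn 0 < rn 0 * R.q 0 ∧ R.p 1 * rd 1 < 2 * rn 1 * R.q 1 ∧
    R.p 2 * rd 2 + R.p 2 * rn 2 < rn 2 * R.q 2 ∧ 2 * R.p 3 * rn 3 < R.q 3 * rd 3)

section radii

variable {rn rd : Fin 4 → ℕ}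

theorem rhoOk.pos (h : rhoOk rn rd = true) (c : Fin 4) : (0 : ℝ) < rn c ∧ (0 : ℝ) < rd c := by
  simp only [rhoOk, decide_eq_true_eq] at h
  exact ⟨by exact_mod_cast (h.1 c).1, by exact_mod_cast (h.1 c).2⟩

theorem rhoOk.rho_pos (h : rhoOk rn rd = true) (c : Fin 4) : (0 : ℝ) < (rn c : ℝ) / rd c :=
  div_pos (rhoOk.pos h c).1 (rhoOk.pos h c).2

theorem rhoOk.s01 (h : rhoOk rn rd = true) :
    (rn 0 : ℝ) / rd 0 + (rn 1 : ℝ) / rd 1 < 1 / 2 := by
  have h0 := (rhoOk.pos h 0).2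
  have h1 := (rhoOk.pos h 1).2
  simp only [rhoOk, decide_eq_true_eq] at h
  have h2 : (2 : ℝ) * (rn 0 * rd 1 + rn 1 * rd 0) < rd 0 * rd 1 := by exact_mod_cast h.2.1
  rw [div_add_div _ _ h0.ne' h1.ne', div_lt_div_iff₀ (by positivity) (by norm_num)]
  linarith

theorem rhoOk.s12 (h : rhoOk rn rd = true) :
    (rn 1 : ℝ) / rd 1 + (rn 2 : ℝ) / rd 2 < 1 / 2 := by
  have h0 := (rhoOk.pos h 1).2
  have h1 := (rhoOk.pos h 2).2
  simp only [rhoOk, decide_eq_true_eq] at h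
  have h2 : (2 : ℝ) * (rn 1 * rd 2 + rn 2 * rd 1) < rd 1 * rd 2 := by exact_mod_cast h.2.2.1
  rw [div_add_div _ _ h0.ne' h1.ne', div_lt_div_iff₀ (by positivity) (by norm_num)]
  linarith

theorem rhoOk.s3 (h : rhoOk rn rd = true) : (1 : ℝ) < (rn 3 : ℝ) / rd 3 := by
  have h0 := (rhoOk.pos h 3).2
  simp only [rhoOk, decide_eq_true_eq] at h
  have h2 : (rd 3 : ℝ) < rn 3 := by exact_mod_cast h.2.2.2
  rwa [one_lt_div h0]

/-- the geometry of `GeoN` as `Geo` -/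
noncomputable def geo {N n : ℕ} (G : GeoN N n 8) (w : Fin n → H580.Wall)
    (h : rhoOk G.rn G.rd = true) : Geo N n where
  TU := G.TU
  w := w
  ρ := fun c => (G.rn c : ℝ) / G.rd c
  ρ_pos := rhoOk.rho_pos h
  s01 := rhoOk.s01 h
  s12 := rhoOk.s12 h
  s3 := rhoOk.s3 h

theorem readIn.rad (h : rhoOk rn rd = true) {R : H284.Rad} (hR : R.ok = true)
    (h' : readIn rn rd R = true) (g : Gp) :
    AR.Rad (fun c => (rn c : ℝ) / rd c) g.cusp (R.r g) := by
  have hp := rhoOk.pos h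
  simp only [readIn, decide_eq_true_eq] at h'
  obtain ⟨a0, a1, a2, a3⟩ := h'
  have hq : ∀ c, (0 : ℝ) < R.q c := fun c => by
    obtain ⟨h1, h2⟩ := H284.Rad.ok_lt hR c
    exact_mod_cast h1.trans h2
  have key : ∀ c : Fin 4, AR.Rad (fun c => (rn c : ℝ) / rd c) c ((R.p c : ℝ) / R.q c) := by
    intro c
    have b0 : (R.p 0 * rd 0 + R.p 0 * rn 0 : ℝ) < rn 0 * R.q 0 := by exact_mod_cast a0
    have b1 : (R.p 1 * rd 1 : ℝ) < 2 * rn 1 * R.q 1 := by exact_mod_cast a1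
    have b2 : (R.p 2 * rd 2 + R.p 2 * rn 2 : ℝ) < rn 2 * R.q 2 := by exact_mod_cast a2
    have b3 : (2 * R.p 3 * rn 3 : ℝ) < R.q 3 * rd 3 := by exact_mod_cast a3
    fin_cases c
    · change (R.p 0 : ℝ) / R.q 0 < (rn 0 : ℝ) / rd 0 * (1 - (R.p 0 : ℝ) / R.q 0)
      have h1 := hq 0
      have h2 := (hp 0).2
      have e : (rn 0 : ℝ) / rd 0 * (1 - (R.p 0 : ℝ) / R.q 0) =
          (rn 0 * R.q 0 - R.p 0 * rn 0) / (rd 0 * R.q 0) := by
        field_simp
      rw [e, div_lt_div_iff₀ h1 (by positivity)]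
      have := mul_lt_mul_of_pos_right b0 h1
      linarith
    · change (R.p 1 : ℝ) / R.q 1 < 2 * ((rn 1 : ℝ) / rd 1)
      have h1 := hq 1
      have h2 := (hp 1).2
      rw [← mul_div_assoc, div_lt_div_iff₀ h1 h2]
      linarith
    · change (R.p 2 : ℝ) / R.q 2 < (rn 2 : ℝ) / rd 2 * (1 - (R.p 2 : ℝ) / R.q 2)
      have h1 := hq 2
      have h2 := (hp 2).2
      have e : (rn 2 : ℝ) / rd 2 * (1 - (R.p 2 : ℝ) / R.q 2) =
          (rn 2 * R.q 2 - R.p 2 * rn 2) / (rd 2 * R.q 2) := by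
        field_simp
      rw [e, div_lt_div_iff₀ h1 (by positivity)]
      have := mul_lt_mul_of_pos_right b2 h1
      linarith
    · change 2 * ((R.p 3 : ℝ) / R.q 3) * ((rn 3 : ℝ) / rd 3) < 1
      have h1 := hq 3
      have h2 := (hp 3).2
      have e : 2 * ((R.p 3 : ℝ) / R.q 3) * ((rn 3 : ℝ) / rd 3) =
          (2 * R.p 3 * rn 3) / (R.q 3 * rd 3) := by
        field_simp
      rw [e, div_lt_one (by positivity)]
      exact b3
  exact key g.cusp

end radii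

/-! ### the link between the table and the potentials -/

/-- the table and its potentials -/
structure Link (D : Tab) where
  μ : Fin 8 → Pot
  γ : Fin 8 → ℝ
  W_eq : ∀ (b : Fin 8) z, WtP (fun _ => 27) μ γ b z = D.W b z
  sym : ∀ (b : Fin 8) z, D.W b (conj z) = D.W b z
  /-- lower bound of the energy, times `2 ^ 40` -/
  e : ℤ
  en : (e : ℝ) / 2 ^ 40 ≤ E0P (fun _ => 27) μ γ

/-- the link from the kernel checks of helper476 and helper462 -/
noncomputable def Link.mk' (D : Tab) (S : SE) (l : List EA) (h : okE S l = true)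
    (hm : LK.mtch S l D.ents = true) (hL : 0 < D.L) (hS : S.L = 27 * D.L)
    (hs : PT.symOk D = true) {P Q n : ℕ} (hseg : Seg S l n P Q) (hn : l.length ≤ n) (e : ℤ)
    (he : LK.enOk S D 27 P Q e = true) : Link D where
  μ := LK.muV S l h
  γ := LK.gaV S D 27
  W_eq := fun b z => LK.W_val h hm hL (by norm_num) hS b z
  sym := fun b z => PT.W_conj D hs b z
  e := e
  en := LK.E0_ge h hL (by norm_num) hS hseg hn he

/-- **the archimedean half of design A from a certificate** -/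
theorem stAF_join {N n : ℕ} {c0 : ℕ} (D : Tab) (lk : Link D)
    (G : GeoN N n 8) (w : Fin n → H580.Wall) (hrho : rhoOk G.rn G.rd = true)
    (hw : H250.SameSign (fun j => (w j).fn) G.wi)
    (cu : ∀ j z, (G.wi j).fn z = 0 → ∃ p ∈ G.pu j, p.P.On z)
    (ca : ∀ z, H250.imW.fn z = 0 → ∃ p ∈ G.pa, p.P.On z)
    (cc : ∀ c z, (H250.cwI c (G.rn c) (G.rd c)).fn z = 0 → ∃ p ∈ G.pc c, p.P.On z)
    (c1 : G.chkI = true) (c2 : G.chkA = true) (c3 : G.chkC = true)
    (gu : ∀ j, ∀ p ∈ G.pu j, GeoN.Good (fun b : Fin 8 => D.W b) p)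
    (ga : ∀ p ∈ G.pa, GeoN.Good (fun b : Fin 8 => D.W b) p)
    (gc : ∀ c, ∀ p ∈ G.pc c, GeoN.Good (fun b : Fin 8 => D.W b) p)
    (F : Frs N) (d : DiscPk) (Q : GPatR F d) (hkc : Q.kc = G.kc)
    (hI : ∀ k k' b c, Q.pI k k' b c → G.pI k k' b c = true)
    (hRr : ∀ k q b c, Q.pR k q b c → G.pR k q b c = true)
    (hC : ∀ c b b', Q.pC c b b' → G.pC c b b' = true)
    (R : H284.Rad) (hin : readIn G.rn G.rd R = true) (T : Tot parA R.r)
    {Rc : Matrix (Fin 8) (Fin 8) ℂ} (hRc : Rc.det ≠ 0) (K : TotR Rc d T)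
    (hLv : ∀ g (b : Fin 8), K.Lv g b → (b : ℕ) ∈ H284.lvA g)
    {kn kd : Fin 4 → ℕ} {wv : Gp → ℤ} (hrd : H284.ReadOk D R kn kd wv) {a : ℤ}
    (hval : H284.valCheck R wv lk.e a = true) :
    StAF parA c0 (a / 10000) := by
  have hRok : R.ok = true := by
    simp only [H284.valCheck, Bool.and_eq_true] at hval
    exact hval.1
  have hWf : WtP (fun _ => parA.D0) lk.μ lk.γ = fun (b : Fin 8) => D.W b := by
    funext b z
    exact lk.W_eq b z
  refine H284.stAF_value (R := R) (w := wv) (e := lk.e) hval (ω := fun g => (wv g : ℝ) / 2 ^ 40)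
    (fun g => le_rfl) (E := E0P (fun _ => parA.D0) lk.μ lk.γ) lk.en ?_
  have hD0 : 0 < parA.D0 := by simp [parA]
  refine H352.stAR_R parA c0 parA_card hD0 R.r (H284.Rad.r_pos hRok) (H284.Rad.r_lt hRok) T
    (geo G w hrho) F d Q (readIn.rad hrho hRok hin) hRc K lk.μ lk.γ ?_ ?_ ?_ ?_ _ ?_
  · intro b z
    rw [hWf]
    exact lk.sym b z
  · rw [hWf]
    exact G.n1 hw (fun c => rfl) (rhoOk.rho_pos hrho)
      (fun c => by exact_mod_cast (rhoOk.pos hrho c).2) ca c2 hRr ga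
  · rw [hWf]
    exact G.n2 hw (fun c => rfl) (fun c => by exact_mod_cast (rhoOk.pos hrho c).2) cu c1 hI gu
  · rw [hWf, hkc]
    exact G.n3 hw (fun c => rfl) (fun c => by exact_mod_cast (rhoOk.pos hrho c).2) cc c3 hC gc
  · intro g s hs b hb
    rw [hWf]
    exact H284.n4_of_check hrd g hs (hLv g b hb)

end Vale.Agent.P030.H208
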