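import Vale.Agent.P030.H208.Mob
import Vale.Agent.P030.H3.EnergyN3

/-!
# Signed mixtures of atoms: the energy bound for Cauchy–Vandermonde products
-/

namespace Vale.Agent.P030.H208

open Finset Filter Topology MeasureTheory Real ProbabilityTheory
open Vale.Agent.P030.H54 Vale.Agent.P030.H3

set_option linter.unusedSectionVars false

/-! ## Circles -/

section circ

variable {c : ℂ} {ρ : ℝ}

/-- the circle as an atom -/
noncomputable def circ (c : ℂ) (ρ : ℝ) (hρ : 0 < ρ) : Atom :=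
  mob c ρ 1 0 (by simpa using hρ.ne')

lemma circ_u (hρ : 0 < ρ) (z : ℂ) : (circ c ρ hρ).u z = Real.log (max ρ ‖z - c‖) := by
  change mobU c ρ 1 0 z = _
  simp only [mobU, one_mul, zero_mul, zero_sub, norm_neg, norm_one, norm_zero,
    Complex.norm_real, Real.norm_eq_abs, abs_of_pos hρ]
  rw [max_eq_left (zero_le_one' ℝ), Real.log_one, sub_zero, max_comm]

lemma mobX_circ (θ : ℝ) : mobX c ρ 1 0 θ = circleMap c ρ θ := by
  simp [mobX, zt, circleMap]

lemma circ_cr (hρ : 0 < ρ) (B : Atom) : (circ c ρ hρ).cr B = circleAverage B.u c ρ := by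
  change ∫ x, B.u x ∂(tau.map (mobX c ρ 1 0)) = _
  rw [integral_map measurable_mobX.aemeasurable B.continuous_u.aestronglyMeasurable,
    ← tau_int B.u c ρ]
  simp only [mobX_circ]

lemma circ_cr_circ {c' : ℂ} {ρ' : ℝ} (hρ : 0 < ρ) (hρ' : 0 < ρ') :
    (circ c ρ hρ).cr (circ c' ρ' hρ') = mE c' ρ' c ρ := by
  rw [circ_cr, mE]
  congr 1
  funext z
  exact circ_u hρ' z

lemma circleIntegrable_u (B : Atom) : CircleIntegrable B.u c ρ :=
  ContinuousOn.circleIntegrable' B.continuous_u.continuousOn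

lemma abs_circ_cr_sub_le (hρ : 0 < ρ) (B : Atom) :
    |(circ c ρ hρ).cr B - B.u c| ≤ B.L * ρ := by
  have hz : ∀ z ∈ Metric.sphere c |ρ|, |B.u z - B.u c| ≤ B.L * ρ := by
    intro z hz
    rw [abs_of_pos hρ, Metric.mem_sphere, dist_eq_norm] at hz
    have := B.lip z c
    rwa [hz] at this
  rw [circ_cr, abs_le]
  constructor
  · have h : circleAverage (fun _ => B.u c - B.L * ρ) c ρ ≤ circleAverage B.u c ρ :=
      circleAverage_mono (circleIntegrable_const _ _ _) (circleIntegrable_u B) fun z hz' => by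
        have := (abs_le.1 (hz z hz')).1
        linarith
    rw [circleAverage_const] at h
    linarith
  · have h : circleAverage B.u c ρ ≤ circleAverage (fun _ => B.u c + B.L * ρ) c ρ :=
      circleAverage_mono (circleIntegrable_u B) (circleIntegrable_const _ _ _) fun z hz' => by
        have := (abs_le.1 (hz z hz')).2
        linarith
    rw [circleAverage_const] at h
    linarith

end circ

/-- **signed mixture of atoms of total mass one** -/
structure Mix (κ : Type*) [Fintype κ] where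
  w : κ → ℝ
  A : κ → Atom
  w_sum : ∑ k, w k = 1

namespace Mix

variable {κ : Type*} [Fintype κ] (m : Mix κ)

/-- potential -/
noncomputable def U (z : ℂ) : ℝ := ∑ k, m.w k * (m.A k).u z

/-- energy -/
noncomputable def En : ℝ := ∑ k, ∑ l, m.w k * m.w l * (m.A k).cr (m.A l)

/-- bound of the slope -/
noncomputable def Wc : ℝ := ∑ k, |m.w k| * (m.A k).L

lemma Wc_nonneg : 0 ≤ m.Wc :=
  Finset.sum_nonneg fun k _ => mul_nonneg (abs_nonneg _) (m.A k).L_nonneg

lemma continuous_U : Continuous m.U :=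
  continuous_finsetSum _ fun k _ => continuous_const.mul (m.A k).continuous_u

/-- **Signed energy inequality** for mixtures of atoms -/
theorem energy_general {ι : Type*} [Fintype ι] (s : ι → ℂ) (r : ι → ℝ)
    (hr : ∀ i, 0 < r i) (q : ι → ℝ) (g : ι → ι → ℝ)
    (hg : ∀ i j, (0 ≤ q i * q j ∧ g i j ≤ q i * q j * Real.log (max (r i) ‖s i - s j‖)) ∨
      (q i * q j ≤ 0 ∧ r i + r j ≤ ‖s i - s j‖ ∧ g i j ≤ q i * q j * Real.log ‖s i - s j‖)) :
    ∑ i, ∑ j, g i j ≤ 2 * (∑ i, q i) * ∑ i, q i * m.U (s i) - (∑ i, q i) ^ 2 * m.En +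
        2 * |∑ i, q i| * m.Wc * (∑ i, |q i| * r i) := by
  set D := ∑ i, q i with hD
  let At : ι ⊕ κ → Atom := Sum.elim (fun i => circ (s i) (r i) (hr i)) m.A
  let qq : ι ⊕ κ → ℝ := Sum.elim q (fun k => -(D * m.w k))
  have hqq : ∑ p, qq p = 0 := by
    simp only [qq, Fintype.sum_sum_type, Sum.elim_inl, Sum.elim_inr, Finset.sum_neg_distrib]
    rw [← Finset.mul_sum, m.w_sum, mul_one, ← hD]
    ring
  have hc := atoms_cpd At qq hqq
  simp only [Fintype.sum_sum_type, qq, At, Sum.elim_inl, Sum.elim_inr,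
    Finset.sum_add_distrib] at hc
  set X := ∑ i, ∑ k, q i * m.w k * (circ (s i) (r i) (hr i)).cr (m.A k) with hX
  have c2 : ∑ i, ∑ k, q i * -(D * m.w k) * (circ (s i) (r i) (hr i)).cr (m.A k) = -D * X := by
    rw [hX, Finset.mul_sum]
    refine Finset.sum_congr rfl fun i _ => ?_
    rw [Finset.mul_sum]
    exact Finset.sum_congr rfl fun k _ => by ring
  have c2' : ∑ k, ∑ i, -(D * m.w k) * q i * (m.A k).cr (circ (s i) (r i) (hr i)) = -D * X := by
    rw [← c2, Finset.sum_comm]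
    refine Finset.sum_congr rfl fun i _ => Finset.sum_congr rfl fun k _ => ?_
    rw [Atom.cr_comm]; ring
  have c3 : ∑ k, ∑ l, -(D * m.w k) * -(D * m.w l) * (m.A k).cr (m.A l) = D ^ 2 * m.En := by
    rw [En, Finset.mul_sum]
    refine Finset.sum_congr rfl fun i _ => ?_
    rw [Finset.mul_sum]
    exact Finset.sum_congr rfl fun k _ => by ring
  rw [c2, c2', c3] at hc
  have hG : ∑ i, ∑ j, g i j ≤
      ∑ i, ∑ j, q i * q j * (circ (s i) (r i) (hr i)).cr (circ (s j) (r j) (hr j)) := by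
    refine Finset.sum_le_sum fun i _ => Finset.sum_le_sum fun j _ => ?_
    rw [circ_cr_circ]
    rcases hg i j with ⟨h1, h2⟩ | ⟨h1, h2, h3⟩
    · refine h2.trans (mul_le_mul_of_nonneg_left ?_ h1)
      refine le_trans ?_ (le_mE (hr i) (hr j))
      exact Real.log_le_log (lt_max_of_lt_left (hr i)) (max_le_max_right _ (le_max_left _ _))
    · rw [mE_disjoint (hr i) (hr j) h2]
      exact h3
  have hXU : |X - ∑ i, q i * m.U (s i)| ≤ m.Wc * ∑ i, |q i| * r i := by
    have e : X - ∑ i, q i * m.U (s i) =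
        ∑ i, ∑ k, q i * m.w k * ((circ (s i) (r i) (hr i)).cr (m.A k) - (m.A k).u (s i)) := by
      rw [hX, ← Finset.sum_sub_distrib]
      refine Finset.sum_congr rfl fun i _ => ?_
      rw [U, Finset.mul_sum, ← Finset.sum_sub_distrib]
      exact Finset.sum_congr rfl fun k _ => by ring
    rw [e, Wc, Finset.sum_mul_sum, Finset.sum_comm]
    refine (Finset.abs_sum_le_sum_abs _ _).trans (Finset.sum_le_sum fun k _ => ?_)
    refine (Finset.abs_sum_le_sum_abs _ _).trans (Finset.sum_le_sum fun i _ => ?_)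
    rw [abs_mul, abs_mul]
    have h1 := abs_circ_cr_sub_le (c := s i) (hr i) (m.A k)
    have h2 := mul_le_mul_of_nonneg_left h1 (mul_nonneg (abs_nonneg (q i)) (abs_nonneg (m.w k)))
    refine h2.trans (le_of_eq ?_)
    ring
  have hDX : 2 * D * X ≤ 2 * D * ∑ i, q i * m.U (s i) + 2 * |D| * m.Wc * (∑ i, |q i| * r i) := by
    have h1 : |2 * D * (X - ∑ i, q i * m.U (s i))| ≤ 2 * |D| * (m.Wc * ∑ i, |q i| * r i) := by
      rw [abs_mul, abs_mul, abs_two]
      exact mul_le_mul_of_nonneg_left hXU (by positivity)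
    have h2 := (abs_le.1 h1).2
    linarith
  linarith

/-- **Energy bound for Cauchy–Vandermonde products** -/
theorem cauchyVandermonde_le {n₁ n₂ : ℕ} (y : Fin n₁ → ℂ) (x : Fin n₂ → ℂ)
    (ry : Fin n₁ → ℝ) (rx : Fin n₂ → ℝ) (hry : ∀ i, 0 < ry i) (hrx : ∀ i, 0 < rx i)
    (hsep : ∀ i j, ry i + rx j ≤ ‖y i - x j‖) :
    avd y * avd x ≤ (∏ i, ∏ j, ‖y i - x j‖) *
      Real.exp (((n₁ : ℝ) - n₂) * (∑ i, m.U (y i) - ∑ i, m.U (x i)) -
        ((n₁ : ℝ) - n₂) ^ 2 * m.En / 2 + |(n₁ : ℝ) - n₂| * m.Wc * (∑ i, ry i + ∑ i, rx i) -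
        (∑ i, Real.log (ry i) + ∑ i, Real.log (rx i)) / 2) := by
  have hyx : ∀ i j, 0 < ‖y i - x j‖ := fun i j =>
    lt_of_lt_of_le (add_pos (hry i) (hrx j)) (hsep i j)
  have hpr : 0 < ∏ i, ∏ j, ‖y i - x j‖ :=
    Finset.prod_pos fun i _ => Finset.prod_pos fun j _ => hyx i j
  by_cases hy0 : avd y = 0
  · rw [hy0, zero_mul]; positivity
  by_cases hx0 : avd x = 0
  · rw [hx0, mul_zero]; positivity
  have hyp : 0 < avd y := lt_of_le_of_ne (avd_nonneg y) (Ne.symm hy0)
  have hxp : 0 < avd x := lt_of_le_of_ne (avd_nonneg x) (Ne.symm hx0)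
  let s : Fin n₁ ⊕ Fin n₂ → ℂ := Sum.elim y x
  let r : Fin n₁ ⊕ Fin n₂ → ℝ := Sum.elim ry rx
  let q : Fin n₁ ⊕ Fin n₂ → ℝ := Sum.elim (fun _ => 1) (fun _ => -1)
  let g : Fin n₁ ⊕ Fin n₂ → Fin n₁ ⊕ Fin n₂ → ℝ := fun i j =>
    q i * q j * Real.log ‖s i - s j‖ + if i = j then Real.log (r i) else 0
  have hr : ∀ i, 0 < r i := by
    rintro (i | i)
    · exact hry i
    · exact hrx i
  have hmain := m.energy_general s r hr q g (by
    have hsame : ∀ i j : Fin n₁ ⊕ Fin n₂, q i * q j = 1 → (i ≠ j → ‖s i - s j‖ ≠ 0) →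
        g i j ≤ q i * q j * Real.log (max (r i) ‖s i - s j‖) := by
      intro i j hq hne
      simp only [g, hq, one_mul]
      by_cases hij : i = j
      · subst hij
        simp [max_eq_left (hr i).le]
      · rw [if_neg hij, add_zero]
        exact Real.log_le_log (lt_of_le_of_ne (norm_nonneg _) (Ne.symm (hne hij)))
          (le_max_right _ _)
    rintro (i | i) (j | j)
    · refine Or.inl ⟨by simp [q], hsame _ _ (by simp [q]) fun hij => ?_⟩
      exact avd_ne_iff hy0 fun h => hij (by rw [h])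
    · refine Or.inr ⟨by simp [q], hsep i j, ?_⟩
      simp [g]
    · refine Or.inr ⟨by simp [q], ?_, ?_⟩
      · have := hsep j i
        simp only [r, s, Sum.elim_inl, Sum.elim_inr]
        rw [norm_sub_rev]; linarith
      · simp [g]
    · refine Or.inl ⟨by simp [q], hsame _ _ (by simp [q]) fun hij => ?_⟩
      exact avd_ne_iff hx0 fun h => hij (by rw [h]))
  have hG : ∑ i, ∑ j, g i j = 2 * Real.log (avd y) + 2 * Real.log (avd x) -
      2 * Real.log (∏ i, ∏ j, ‖y i - x j‖) + (∑ i, Real.log (ry i) + ∑ i, Real.log (rx i)) := by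
    have hl : Real.log (∏ i, ∏ j, ‖y i - x j‖) = ∑ i, ∑ j, Real.log ‖y i - x j‖ := by
      rw [Real.log_prod fun i _ => Finset.prod_ne_zero_iff.2 fun j _ => (hyx i j).ne']
      exact Finset.sum_congr rfl fun i _ => Real.log_prod fun j _ => (hyx i j).ne'
    have hl' : ∑ i, ∑ j, Real.log ‖x i - y j‖ = ∑ i, ∑ j, Real.log ‖y i - x j‖ := by
      rw [Finset.sum_comm]
      exact Finset.sum_congr rfl fun i _ => Finset.sum_congr rfl fun j _ => by rw [norm_sub_rev]
    rw [log_avd hy0, log_avd hx0, hl]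
    simp only [g, Finset.sum_add_distrib, Finset.sum_ite_eq, Finset.mem_univ, if_true,
      Fintype.sum_sum_type, q, s, r, Sum.elim_inl, Sum.elim_inr, one_mul, mul_one, neg_mul,
      mul_neg, Finset.sum_neg_distrib, hl']
    ring
  have hD : ∑ i, q i = (n₁ : ℝ) - n₂ := by
    simp [q, sub_eq_add_neg]
  have hU : ∑ i, q i * m.U (s i) = ∑ i, m.U (y i) - ∑ i, m.U (x i) := by
    simp [q, s, sub_eq_add_neg]
  have hZ : ∑ i, |q i| * r i = ∑ i, ry i + ∑ i, rx i := by
    simp [q, r]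
  rw [hG, hD, hU, hZ] at hmain
  rw [← Real.log_le_log_iff (by positivity) (by positivity), Real.log_mul hyp.ne' hxp.ne',
    Real.log_mul hpr.ne' (Real.exp_pos _).ne', Real.log_exp]
  linarith

/-- **(N3) for mixtures of atoms** -/
theorem energy_N3 (γ : ℝ) (d K : ℕ) {δ : ℝ} (hδ : 0 < δ) (hδ2 : δ ≤ 2)
    (p : ℕ) (hp : p + d ≤ K) (a : Fin (p + d) → ℂ) (x : Fin p → ℂ)
    (hsep : ∀ i j, δ ≤ ‖x i - a j‖) :
    ‖(Matrix.vandermonde a).det‖ * ‖(Matrix.vandermonde x).det‖ ≤
      Real.exp (∑ i, (d * m.U (a i) + γ) - ∑ j, (d * m.U (x j) + γ) -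
        (d * γ + (d : ℝ) ^ 2 * m.En / 2 - K * (d * m.Wc * δ - Real.log (δ / 2)))) *
      ∏ i, ∏ j, ‖x i - a j‖ := by
  have h := m.cauchyVandermonde_le a x (fun _ => δ / 2) (fun _ => δ / 2) (fun _ => by positivity)
    (fun _ => by positivity) (fun i j => by have := hsep j i; rw [norm_sub_rev]; linarith)
  rw [norm_det_vandermonde, norm_det_vandermonde, mul_comm (Real.exp _)]
  refine h.trans ?_
  have e1 : ∏ i, ∏ j, ‖a i - x j‖ = ∏ i, ∏ j, ‖x i - a j‖ := by
    rw [Finset.prod_comm]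
    exact Finset.prod_congr rfl fun i _ => Finset.prod_congr rfl fun j _ => norm_sub_rev _ _
  rw [e1]
  refine mul_le_mul_of_nonneg_left (Real.exp_le_exp.2 ?_)
    (Finset.prod_nonneg fun i _ => Finset.prod_nonneg fun j _ => norm_nonneg _)
  have e2 : (((p + d : ℕ) : ℝ) - p) = d := by push_cast; ring
  rw [e2]
  have e3 : ∑ i, ((d : ℝ) * m.U (a i) + γ) - ∑ j, ((d : ℝ) * m.U (x j) + γ) =
      d * (∑ i, m.U (a i) - ∑ j, m.U (x j)) + d * γ := by
    simp only [Finset.sum_add_distrib, ← Finset.mul_sum, Finset.sum_const, Finset.card_univ,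
      Fintype.card_fin, nsmul_eq_mul]
    push_cast
    ring
  rw [e3]
  simp only [Finset.sum_const, Finset.card_univ, Fintype.card_fin, nsmul_eq_mul]
  have hlog : Real.log (δ / 2) ≤ 0 := Real.log_nonpos (by positivity) (by linarith)
  have hd : (0 : ℝ) ≤ d := Nat.cast_nonneg d
  have hWc := m.Wc_nonneg
  have h1 : 0 ≤ (d : ℝ) * m.Wc * (δ / 2) - Real.log (δ / 2) / 2 := by
    have : 0 ≤ (d : ℝ) * m.Wc * (δ / 2) := by positivity
    linarith
  have h2 : (((p + d : ℕ) : ℝ) + p) ≤ 2 * K := by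
    have : ((p + d : ℕ) : ℝ) ≤ K := by exact_mod_cast hp
    have h3 : (p : ℝ) ≤ ((p + d : ℕ) : ℝ) := by push_cast; linarith
    linarith
  have h3 := mul_le_mul_of_nonneg_right h2 h1
  rw [abs_of_nonneg hd]
  nlinarith [h3]

end Mix

end Vale.Agent.P030.H208
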