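import Vale.Agent.P030.H208.Atoms

/-!
# Atoms which are Moebius images of the uniform measure on the unit circle

`mob A B C D` is the image under `ζ ↦ (A + B ζ) / (C + D ζ)`; circles (`C = 1, D = 0`) and
Cauchy measures on the real line (`A = p, B = - conj p, C = 1, D = -1`) are special cases.
-/

namespace Vale.Agent.P030.H208

open Finset Filter Topology MeasureTheory Real ProbabilityTheory
open Vale.Agent.P030.H54 Vale.Agent.P030.H3

/-- the uniform probability measure on the angles -/
noncomputable def tau : Measure ℝ := (ENNReal.ofReal (2 * π))⁻¹ • volume.restrict (Set.Ioc 0 (2 * π))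

instance : IsProbabilityMeasure tau := by
  refine ⟨?_⟩
  have h : (0 : ℝ) < 2 * π := by positivity
  simp only [tau, Measure.smul_apply, Measure.restrict_apply_univ, Real.volume_Ioc, smul_eq_mul,
    sub_zero]
  exact ENNReal.inv_mul_cancel (by simpa using h) ENNReal.ofReal_ne_top

lemma tau_int (f : ℂ → ℝ) (c : ℂ) (R : ℝ) :
    ∫ θ, f (circleMap c R θ) ∂tau = circleAverage f c R := by
  have h : (0 : ℝ) < 2 * π := by positivity
  rw [tau, integral_smul_measure, circleAverage, intervalIntegral.integral_of_le h.le,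
    ENNReal.toReal_inv, ENNReal.toReal_ofReal h.le]

lemma tau_integrable {f : ℂ → ℝ} {c : ℂ} {R : ℝ} (hf : CircleIntegrable f c R) :
    Integrable (fun θ => f (circleMap c R θ)) tau := by
  have h : (0 : ℝ) < 2 * π := by positivity
  unfold CircleIntegrable at hf
  rw [intervalIntegrable_iff_integrableOn_Ioc_of_le h.le] at hf
  refine Integrable.smul_measure hf ?_
  rw [ENNReal.inv_ne_top]
  simpa using h

/-- the point of the unit circle -/
noncomputable def zt (θ : ℝ) : ℂ := circleMap 0 1 θ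

lemma norm_zt (θ : ℝ) : ‖zt θ‖ = 1 := by simp [zt]

lemma continuous_zt : Continuous zt := continuous_circleMap 0 1

lemma ae_lin_ne {α β : ℂ} (h : α ≠ 0 ∨ β ≠ 0) : ∀ᵐ θ ∂tau, α + β * zt θ ≠ 0 := by
  by_cases hβ : β = 0
  · have hα : α ≠ 0 := by
      rcases h with h | h
      · exact h
      · exact absurd hβ h
    exact Eventually.of_forall fun θ => by simpa [hβ] using hα
  · have hc : ({θ | ¬ α + β * zt θ ≠ 0} : Set ℝ).Countable := by
      have h1 : ({-α / β} : Set ℂ).Countable := Set.countable_singleton _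
      refine (h1.preimage_circleMap 0 one_ne_zero).mono fun θ hθ => ?_
      simp only [ne_eq, not_not, Set.mem_ofPred_eq] at hθ
      simp only [Set.mem_preimage, Set.mem_singleton_iff]
      change zt θ = _
      rw [eq_div_iff hβ]
      linear_combination hθ
    rw [ae_iff, tau, Measure.smul_apply]
    have h2 : volume.restrict (Set.Ioc 0 (2 * π)) {θ | ¬ α + β * zt θ ≠ 0} = 0 :=
      le_antisymm ((Measure.restrict_apply_le _ _).trans_eq (hc.measure_zero _)) bot_le
    rw [h2, smul_zero]

lemma zt_log (α : ℂ) {β : ℂ} (hβ : β ≠ 0) (θ : ℝ) (h : α + β * zt θ ≠ 0) :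
    Real.log ‖α + β * zt θ‖ = Real.log ‖β‖ + Real.log ‖circleMap 0 1 θ - (-α / β)‖ := by
  have e : α + β * zt θ = β * (circleMap 0 1 θ - (-α / β)) := by
    simp only [zt]
    field_simp
    ring
  have h1 : circleMap 0 1 θ - (-α / β) ≠ 0 := by
    intro h0
    rw [h0, mul_zero] at e
    exact h e
  rw [e, norm_mul, Real.log_mul (norm_ne_zero_iff.2 hβ) (norm_ne_zero_iff.2 h1)]

lemma integrable_lin (α β : ℂ) : Integrable (fun θ => Real.log ‖α + β * zt θ‖) tau := by
  by_cases hβ : β = 0
  · simp [hβ]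
  · have h1 : Integrable (fun θ => Real.log ‖circleMap 0 1 θ - (-α / β)‖) tau :=
      tau_integrable (f := fun z => Real.log ‖z - (-α / β)‖) (circleIntegrable_log_norm_sub_const 1)
    refine ((integrable_const (Real.log ‖β‖)).add h1).congr ?_
    filter_upwards [ae_lin_ne (α := α) (Or.inr hβ)] with θ hθ
    rw [zt_log α hβ θ hθ, Pi.add_apply]

lemma int_lin {α β : ℂ} :
    ∫ θ, Real.log ‖α + β * zt θ‖ ∂tau = Real.log (max ‖α‖ ‖β‖) := by
  by_cases hβ : β = 0
  · simp [hβ]
  · have hb : 0 < ‖β‖ := norm_pos_iff.2 hβ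
    have h1 : Integrable (fun θ => Real.log ‖circleMap 0 1 θ - (-α / β)‖) tau :=
      tau_integrable (f := fun z => Real.log ‖z - (-α / β)‖) (circleIntegrable_log_norm_sub_const 1)
    have h2 : ∫ θ, Real.log ‖α + β * zt θ‖ ∂tau =
        ∫ θ, (Real.log ‖β‖ + Real.log ‖circleMap 0 1 θ - (-α / β)‖) ∂tau := by
      refine integral_congr_ae ?_
      filter_upwards [ae_lin_ne (α := α) (Or.inr hβ)] with θ hθ
      exact zt_log α hβ θ hθ
    have h3 : ∫ θ, Real.log ‖circleMap 0 1 θ - (-α / β)‖ ∂tau =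
        Real.log (max 1 ‖(0 : ℂ) - (-α / β)‖) := by
      rw [tau_int (fun z => Real.log ‖z - (-α / β)‖)]
      exact circleAverage_log_norm_sub _ _ one_pos
    rw [h2, integral_add (integrable_const _) h1, h3]
    simp only [integral_const, probReal_univ, one_smul]
    rw [← Real.log_mul hb.ne' (lt_max_of_lt_left one_pos).ne']
    congr 1
    rw [mul_max_of_nonneg _ _ hb.le, mul_one, max_comm]
    congr 1
    rw [zero_sub, norm_neg, norm_div, norm_neg]
    field_simp

section mob

variable {A B C D : ℂ}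

/-- the random point -/
noncomputable def mobX (A B C D : ℂ) (θ : ℝ) : ℂ := (A + B * zt θ) / (C + D * zt θ)

lemma measurable_mobX : Measurable (mobX A B C D) := by
  unfold mobX
  have h := continuous_zt.measurable
  exact (measurable_const.add (measurable_const.mul h)).div
    (measurable_const.add (measurable_const.mul h))

lemma CD_ne (h : A * D - B * C ≠ 0) : C ≠ 0 ∨ D ≠ 0 := by
  by_contra h0
  push Not at h0
  apply h
  rw [h0.1, h0.2]; ring

lemma lin_ne (h : A * D - B * C ≠ 0) (z : ℂ) : C * z - A ≠ 0 ∨ D * z - B ≠ 0 := by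
  by_contra h0
  push Not at h0
  apply h
  linear_combination D * (-h0.1) + C * h0.2

lemma mob_log (z : ℂ) {θ : ℝ} (h1 : C + D * zt θ ≠ 0)
    (h2 : (C * z - A) + (D * z - B) * zt θ ≠ 0) :
    Real.log ‖z - mobX A B C D θ‖ =
      Real.log ‖(C * z - A) + (D * z - B) * zt θ‖ - Real.log ‖C + D * zt θ‖ := by
  have e : z - mobX A B C D θ = ((C * z - A) + (D * z - B) * zt θ) / (C + D * zt θ) := by
    rw [mobX, eq_div_iff h1, sub_mul, div_mul_cancel₀ _ h1]
    ring
  rw [e, norm_div, Real.log_div (norm_ne_zero_iff.2 h2) (norm_ne_zero_iff.2 h1)]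

lemma mob_ae (h : A * D - B * C ≠ 0) (z : ℂ) : ∀ᵐ θ ∂tau, Real.log ‖z - mobX A B C D θ‖ =
      Real.log ‖(C * z - A) + (D * z - B) * zt θ‖ - Real.log ‖C + D * zt θ‖ := by
  filter_upwards [ae_lin_ne (CD_ne h), ae_lin_ne (lin_ne h z)] with θ h1 h2
  exact mob_log z h1 h2

/-- the potential -/
noncomputable def mobU (A B C D : ℂ) (z : ℂ) : ℝ :=
  Real.log (max ‖C * z - A‖ ‖D * z - B‖) - Real.log (max ‖C‖ ‖D‖)

lemma mob_integrable (h : A * D - B * C ≠ 0) (z : ℂ) :
    Integrable (fun θ => Real.log ‖z - mobX A B C D θ‖) tau :=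
  ((integrable_lin _ _).sub (integrable_lin _ _)).congr
    ((mob_ae h z).mono fun _ h => h.symm)

lemma mob_int (h : A * D - B * C ≠ 0) (z : ℂ) :
    ∫ θ, Real.log ‖z - mobX A B C D θ‖ ∂tau = mobU A B C D z := by
  rw [integral_congr_ae (mob_ae h z), integral_sub (integrable_lin _ _) (integrable_lin _ _),
    int_lin, int_lin, mobU]

/-- lower bound of the maximum -/
noncomputable def mobM (A B C D : ℂ) : ℝ := ‖A * D - B * C‖ / (‖C‖ + ‖D‖)

lemma CD_pos (h : A * D - B * C ≠ 0) : 0 < max ‖C‖ ‖D‖ := by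
  rcases CD_ne h with h | h
  · exact lt_max_of_lt_left (norm_pos_iff.2 h)
  · exact lt_max_of_lt_right (norm_pos_iff.2 h)

lemma CD_pos' (h : A * D - B * C ≠ 0) : 0 < ‖C‖ + ‖D‖ := by
  rcases CD_ne h with h | h
  · have := norm_pos_iff.2 h; have := norm_nonneg D; linarith
  · have := norm_pos_iff.2 h; have := norm_nonneg C; linarith

lemma mobM_pos (h : A * D - B * C ≠ 0) : 0 < mobM A B C D :=
  div_pos (norm_pos_iff.2 h) (CD_pos' h)

lemma mobM_le (h : A * D - B * C ≠ 0) (z : ℂ) :
    mobM A B C D ≤ max ‖C * z - A‖ ‖D * z - B‖ := by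
  rw [mobM, div_le_iff₀ (CD_pos' h)]
  have e : A * D - B * C = C * (D * z - B) - D * (C * z - A) := by ring
  rw [e]
  refine (norm_sub_le _ _).trans ?_
  rw [norm_mul, norm_mul]
  have h1 := mul_le_mul_of_nonneg_left (le_max_right ‖C * z - A‖ ‖D * z - B‖) (norm_nonneg C)
  have h2 := mul_le_mul_of_nonneg_left (le_max_left ‖C * z - A‖ ‖D * z - B‖) (norm_nonneg D)
  linarith

lemma mobU_lip (h : A * D - B * C ≠ 0) (z z' : ℂ) :
    |mobU A B C D z - mobU A B C D z'| ≤ max ‖C‖ ‖D‖ / mobM A B C D * ‖z - z'‖ := by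
  have hm := mobM_pos h
  have key : ∀ z z' : ℂ, mobU A B C D z - mobU A B C D z' ≤
      max ‖C‖ ‖D‖ / mobM A B C D * ‖z - z'‖ := by
    intro z z'
    have h1 : 0 < max ‖C * z - A‖ ‖D * z - B‖ := hm.trans_le (mobM_le h z)
    have h2 : 0 < max ‖C * z' - A‖ ‖D * z' - B‖ := hm.trans_le (mobM_le h z')
    have e : mobU A B C D z - mobU A B C D z' =
        Real.log (max ‖C * z - A‖ ‖D * z - B‖ / max ‖C * z' - A‖ ‖D * z' - B‖) := by
      rw [Real.log_div h1.ne' h2.ne', mobU, mobU]; ring
    rw [e]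
    refine (Real.log_le_sub_one_of_pos (div_pos h1 h2)).trans ?_
    rw [div_sub_one h2.ne', div_mul_eq_mul_div]
    have h5 : ‖C * z - A‖ ≤ ‖C * z' - A‖ + max ‖C‖ ‖D‖ * ‖z - z'‖ := by
      have e1 : C * z - A = (C * z' - A) + C * (z - z') := by ring
      rw [e1]
      refine (norm_add_le _ _).trans ?_
      rw [norm_mul]
      have := mul_le_mul_of_nonneg_right (le_max_left ‖C‖ ‖D‖) (norm_nonneg (z - z'))
      linarith
    have h6 : ‖D * z - B‖ ≤ ‖D * z' - B‖ + max ‖C‖ ‖D‖ * ‖z - z'‖ := by
      have e1 : D * z - B = (D * z' - B) + D * (z - z') := by ring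
      rw [e1]
      refine (norm_add_le _ _).trans ?_
      rw [norm_mul]
      have := mul_le_mul_of_nonneg_right (le_max_right ‖C‖ ‖D‖) (norm_nonneg (z - z'))
      linarith
    have h7 : max ‖C * z - A‖ ‖D * z - B‖ - max ‖C * z' - A‖ ‖D * z' - B‖ ≤
        max ‖C‖ ‖D‖ * ‖z - z'‖ := by
      have := max_le (h5.trans (add_le_add_left (le_max_left _ ‖D * z' - B‖) _))
        (h6.trans (add_le_add_left (le_max_right ‖C * z' - A‖ _) _))
      linarith
    exact div_le_div₀ (by have := CD_pos h; positivity) h7 hm (mobM_le h z')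
  rw [abs_le]
  constructor
  · have := key z' z
    rw [norm_sub_rev z' z] at this
    linarith
  · exact key z z'

lemma mob_hlog (h : A * D - B * C ≠ 0) :
    Integrable (fun θ => Real.log (1 + ‖mobX A B C D θ‖)) tau := by
  have hS : 0 < ‖A‖ + ‖B‖ + ‖C‖ + ‖D‖ := by
    have := CD_pos' h; have := norm_nonneg A; have := norm_nonneg B; linarith
  refine ((integrable_const (Real.log (‖A‖ + ‖B‖ + ‖C‖ + ‖D‖))).sub
    (integrable_lin C D)).mono' ?_ ?_
  · exact (Real.measurable_log.comp
      (measurable_const.add measurable_mobX.norm)).aestronglyMeasurable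
  · filter_upwards [ae_lin_ne (CD_ne h)] with θ h1
    have hn := norm_pos_iff.2 h1
    rw [Real.norm_eq_abs, abs_of_nonneg (Real.log_nonneg (by
      linarith [norm_nonneg (mobX A B C D θ)])), Pi.sub_apply, ← Real.log_div hS.ne' hn.ne']
    refine Real.log_le_log (by positivity) ?_
    rw [mobX, norm_div, le_div_iff₀ hn, add_mul, one_mul, div_mul_cancel₀ _ hn.ne']
    have h2 : ‖C + D * zt θ‖ ≤ ‖C‖ + ‖D‖ := by
      refine (norm_add_le _ _).trans ?_
      rw [norm_mul, norm_zt, mul_one]
    have h3 : ‖A + B * zt θ‖ ≤ ‖A‖ + ‖B‖ := by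
      refine (norm_add_le _ _).trans ?_
      rw [norm_mul, norm_zt, mul_one]
    linarith

/-- **the Moebius atom** -/
noncomputable def mob (A B C D : ℂ) (h : A * D - B * C ≠ 0) : Atom where
  ν := tau.map (mobX A B C D)
  prob := Measure.isProbabilityMeasure_map measurable_mobX.aemeasurable
  noat := by
    intro z
    rw [Measure.map_apply measurable_mobX (measurableSet_singleton z)]
    have h1 : ∀ᵐ θ ∂tau, mobX A B C D θ ≠ z := by
      filter_upwards [ae_lin_ne (CD_ne h), ae_lin_ne (lin_ne h z)] with θ h1 h2 h3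
      apply h2
      rw [mobX, div_eq_iff h1] at h3
      linear_combination -h3
    rw [ae_iff] at h1
    refine le_antisymm ((measure_mono fun θ hθ => ?_).trans_eq h1) bot_le
    simpa using hθ
  hlog := by
    rw [integrable_map_measure _ measurable_mobX.aemeasurable]
    · exact mob_hlog h
    · exact (Real.measurable_log.comp (measurable_const.add measurable_norm)).aestronglyMeasurable
  u := mobU A B C D
  hint := by
    intro z
    rw [integrable_map_measure _ measurable_mobX.aemeasurable]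
    · exact mob_integrable h z
    · exact (Real.measurable_log.comp (measurable_const.sub measurable_id).norm).aestronglyMeasurable
  hu := by
    intro z
    rw [integral_map measurable_mobX.aemeasurable]
    · exact mob_int h z
    · exact (Real.measurable_log.comp (measurable_const.sub measurable_id).norm).aestronglyMeasurable
  L := max ‖C‖ ‖D‖ / mobM A B C D
  L_nonneg := div_nonneg (CD_pos h).le (mobM_pos h).le
  lip := mobU_lip h
  low := Real.log (mobM A B C D) - Real.log (max ‖C‖ ‖D‖)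
  hlow := fun z => sub_le_sub_right (Real.log_le_log (mobM_pos h) (mobM_le h z)) _

end mob

end Vale.Agent.P030.H208
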