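import Vale.Agent.P030.H208.MixPot
import Vale.Agent.P030.H905.PotOf

/-!
# Mixtures of atoms as potentials of helper905
-/

namespace Vale.Agent.P030.H208

open Finset Filter Topology MeasureTheory Real

/-- **a signed mixture of atoms is a potential in the sense of helper905** -/
noncomputable def Mix.pot {κ : Type*} [Fintype κ] (m : Mix κ) : H905.Pot where
  U := m.U
  cont := m.continuous_U
  En := m.En
  n3 := by
    intro ε hε
    refine ⟨m.Wc, m.Wc_nonneg, ?_⟩
    intro γ d K δ hδ hδ2 p hp a x hsep
    refine (m.energy_N3 γ d K hδ hδ2 p hp a x hsep).trans ?_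
    refine mul_le_mul_of_nonneg_right (Real.exp_le_exp.2 ?_)
      (Finset.prod_nonneg fun i _ => Finset.prod_nonneg fun j _ => norm_nonneg _)
    have : 0 ≤ ε * d * K := by positivity
    linarith

@[simp] lemma Mix.pot_U {κ : Type*} [Fintype κ] (m : Mix κ) : m.pot.U = m.U := rfl

@[simp] lemma Mix.pot_En {κ : Type*} [Fintype κ] (m : Mix κ) : m.pot.En = m.En := rfl

end Vale.Agent.P030.H208
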